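import Vale.Agent.P143.Labels

namespace Vale.Agent.P143

open MeasureTheory Filter Topology
open scoped Classical

variable {V : Type*}

lemma isTree_iff {W : Finset V} {X : Finset (Sym2 V)} (hS : Sub W X) :
    ((SimpleGraph.fromEdgeSet (X : Set (Sym2 V))).induce (W : Set V)).IsTree ↔ IsTr W X := by
  set K := (SimpleGraph.fromEdgeSet (X : Set (Sym2 V))).induce (W : Set V) with hK
  have hcard : Nat.card K.edgeSet = X.card := by
    rw [Nat.card_coe_set_eq, ← Set.ncard_image_of_injective _
      (Sym2.map.injective (Subtype.val_injective (p := fun v => v ∈ (W : Set V)))),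
      ← Set.ncard_coe_finset]
    congr 1
    ext e
    induction e using Sym2.ind with
    | _ x y =>
      constructor
      · rintro ⟨f, hf, he⟩
        induction f using Sym2.ind with
        | _ u v =>
          rw [← he]
          have : K.Adj u v := hf
          simp only [hK, SimpleGraph.comap_adj, SimpleGraph.fromEdgeSet_adj] at this
          exact this.1
      · intro h
        obtain ⟨h1, h2, h3⟩ := hS x y h
        refine ⟨s(⟨x, h2⟩, ⟨y, h3⟩), ?_, rfl⟩
        show K.Adj _ _
        simp only [hK, SimpleGraph.comap_adj, SimpleGraph.fromEdgeSet_adj]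
        exact ⟨h, h1⟩
  have hW : Nat.card (W : Set V) = W.card := by simp
  rw [SimpleGraph.isTree_iff_connected_and_card, hcard, hW, IsTr]
  refine and_congr_left fun hc => ⟨fun h x hx y hy => ?_, fun h => ?_⟩
  · exact (h.preconnected ⟨x, hx⟩ ⟨y, hy⟩).map
      (SimpleGraph.Embedding.induce (W : Set V)).toHom
  · obtain ⟨r, hr⟩ : W.Nonempty := Finset.card_pos.1 (by omega)
    rw [SimpleGraph.connected_iff_exists_forall_reachable]
    refine ⟨⟨r, hr⟩, fun ⟨z, hz⟩ => ?_⟩
    obtain ⟨_, h2⟩ := reach_ind (fun z => ∃ hz : z ∈ (W : Set V), K.Reachable ⟨r, hr⟩ ⟨z, hz⟩)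
      (fun u v huv ⟨hu, h1⟩ => ⟨(hS u v huv).2.2, h1.trans (SimpleGraph.Adj.reachable (by
        simp only [hK, SimpleGraph.comap_adj, SimpleGraph.fromEdgeSet_adj]
        exact ⟨huv, (hS u v huv).1⟩))⟩) (h r hr z hz) ⟨hr, SimpleGraph.Reachable.refl _⟩
    exact h2

variable {G : SimpleGraph V}

lemma exists_fin (H : G.Subgraph) (hf : H.verts.Finite) (hc : H.Connected) :
    ∃ P : Finset V × Finset (Sym2 V), Good G P ∧ (P.2 : Set (Sym2 V)) = H.edgeSet ∧
      ∀ A : Set (Set (Sym2 V)), ustProb H A =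
        (((trees P.1 P.2).filter (fun X : Finset (Sym2 V) => (X : Set (Sym2 V)) ∈ A)).card : ℝ) /
          (trees P.1 P.2).card := by
  have he : H.edgeSet.Finite := by
    refine ((hf.prod hf).image fun p => s(p.1, p.2)).subset fun e he => ?_
    induction e using Sym2.ind with
    | _ x y =>
      have h : H.Adj x y := he
      exact ⟨(x, y), ⟨H.edge_vert h, H.edge_vert h.symm⟩, rfl⟩
  obtain ⟨W, hW⟩ := hf.exists_finset_coe
  obtain ⟨E, hE⟩ := he.exists_finset_coe
  have hS : Sub W E := by
    intro x y hxy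
    have h : H.Adj x y := by
      have : s(x, y) ∈ H.edgeSet := hE ▸ Finset.mem_coe.2 hxy
      exact this
    exact ⟨h.ne, by rw [← Finset.mem_coe, hW]; exact H.edge_vert h,
      by rw [← Finset.mem_coe, hW]; exact H.edge_vert h.symm⟩
  have key : ∀ T, IsSpanningTree H T ↔ ∃ X ∈ trees W E, (X : Set (Sym2 V)) = T := by
    intro T
    unfold IsSpanningTree
    rw [← hW, ← hE]
    constructor
    · rintro ⟨h1, h2⟩
      obtain ⟨X, rfl⟩ := (E.finite_toSet.subset h1).exists_finset_coe
      have h3 : X ⊆ E := Finset.coe_subset.1 h1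
      exact ⟨X, Finset.mem_filter.2 ⟨Finset.mem_powerset.2 h3,
        (isTree_iff fun x y h => hS x y (h3 h)).1 h2⟩, rfl⟩
    · rintro ⟨X, hX, rfl⟩
      obtain ⟨h1, h2⟩ := Finset.mem_filter.1 hX
      have h3 := Finset.mem_powerset.1 h1
      exact ⟨Finset.coe_subset.2 h3, (isTree_iff fun x y h => hS x y (h3 h)).2 h2⟩
  have hne : (trees W E).Nonempty := by
    obtain ⟨T, h1, h2⟩ := hc.coe.exists_isTree_le
    have : IsSpanningTree H (Sym2.map Subtype.val '' T.edgeSet) := by
      constructor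
      · rintro _ ⟨f, hf, rfl⟩
        induction f using Sym2.ind with
        | _ u v => exact h1 (show T.Adj u v from hf)
      · convert h2
        ext u v
        simp only [SimpleGraph.comap_adj, SimpleGraph.fromEdgeSet_adj]
        constructor
        · rintro ⟨h, _⟩
          exact (Sym2.map.injective Subtype.val_injective).mem_set_image
            (a := s(u, v)) |>.1 h
        · intro h
          exact ⟨⟨s(u, v), h, rfl⟩, fun hh => h.ne (Subtype.ext hh)⟩
    obtain ⟨X, hX, _⟩ := (key _).1 this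
    exact ⟨X, hX⟩
  refine ⟨(W, E), ⟨fun f hf => H.edgeSet_subset (hE ▸ Finset.mem_coe.2 hf), hS, hne⟩, hE,
    fun A => ?_⟩
  unfold ustProb
  rw [← Set.ncard_coe_finset, ← Set.ncard_coe_finset,
    ← Set.ncard_image_of_injective _ Finset.coe_injective,
    ← Set.ncard_image_of_injective (trees W E : Set (Finset (Sym2 V))) Finset.coe_injective]
  congr 3
  · ext T
    simp only [Set.mem_ofPred_eq, key, Set.mem_image, Finset.coe_filter]
    constructor
    · rintro ⟨⟨X, h1, rfl⟩, h2⟩; exact ⟨X, ⟨h1, h2⟩, rfl⟩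
    · rintro ⟨X, ⟨h1, h2⟩, rfl⟩; exact ⟨⟨X, h1, rfl⟩, h2⟩
  · ext T
    simp only [Set.mem_ofPred_eq, key, Set.mem_image, Finset.mem_coe]

def ball (G : SimpleGraph V) (r : V) : ℕ → Set V
  | 0 => {r}
  | n + 1 => ball G r n ∪ ⋃ u ∈ ball G r n, G.neighborSet u

lemma ball_finite (hG : ∀ v, (G.neighborSet v).Finite) (r : V) (n : ℕ) : (ball G r n).Finite := by
  induction n with
  | zero => exact Set.finite_singleton r
  | succ n ih => exact ih.union (ih.biUnion fun u _ => hG u)

lemma ball_mono (r : V) : Monotone (ball G r) :=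
  monotone_nat_of_le_succ fun _ => Set.subset_union_left

lemma ball_adj {r u v : V} {n : ℕ} (hu : u ∈ ball G r n) (h : G.Adj u v) : v ∈ ball G r (n + 1) :=
  Or.inr (Set.mem_biUnion hu h)

lemma mem_ball (hc : G.Connected) (r v : V) : ∃ n, v ∈ ball G r n := by
  have : ∀ {a b : V} (_ : G.Walk a b), (∃ n, a ∈ ball G r n) → ∃ n, b ∈ ball G r n := by
    intro a b p
    induction p with
    | nil => exact id
    | cons h _ ih => exact fun ⟨n, hn⟩ => ih ⟨n + 1, ball_adj hn h⟩
  obtain ⟨p⟩ := hc.preconnected r v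
  exact this p ⟨0, rfl⟩

lemma ball_conn (r : V) (n : ℕ) : (G.induce (ball G r n)).Connected := by
  rw [SimpleGraph.connected_iff_exists_forall_reachable]
  refine ⟨⟨r, ball_mono r (Nat.zero_le n) rfl⟩, ?_⟩
  induction n with
  | zero => rintro ⟨v, rfl⟩; exact SimpleGraph.Reachable.refl _
  | succ n ih =>
    have h1 : ∀ v (hv : v ∈ ball G r n), (G.induce (ball G r (n + 1))).Reachable
        ⟨r, ball_mono r (Nat.zero_le _) rfl⟩ ⟨v, Or.inl hv⟩ := fun v hv =>
      (ih ⟨v, hv⟩).map (G.induceHomOfLE (ball_mono r (Nat.le_succ n))).toHom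
    rintro ⟨v, hv | hv⟩
    · exact h1 v hv
    · obtain ⟨u, hu, huv⟩ := Set.mem_iUnion₂.1 hv
      exact (h1 u hu).trans (SimpleGraph.Adj.reachable huv)

lemma countable_of_conn (hc : G.Connected) (hG : ∀ v, (G.neighborSet v).Finite) : Countable V := by
  obtain ⟨r⟩ := hc.nonempty
  rw [← Set.countable_univ_iff]
  refine (Set.countable_iUnion fun n => (ball_finite hG r n).countable).mono fun v _ => ?_
  exact Set.mem_iUnion.2 (mem_ball hc r v)

lemma exists_exhaustion (hc : G.Connected) (hG : ∀ v, (G.neighborSet v).Finite) :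
    ∃ H, IsExhaustion G H := by
  obtain ⟨r⟩ := hc.nonempty
  refine ⟨fun n => (⊤ : G.Subgraph).induce (ball G r n), fun n => ⟨ball_finite hG r n,
    SimpleGraph.connected_induce_iff.1 (ball_conn r n)⟩,
    fun m n h => SimpleGraph.Subgraph.induce_mono_right (ball_mono r h), ?_⟩
  ext u v
  · simp only [SimpleGraph.Subgraph.verts_iSup, SimpleGraph.Subgraph.induce_verts,
      Set.mem_iUnion, SimpleGraph.Subgraph.verts_top, Set.mem_univ, iff_true]
    exact mem_ball hc r u
  · simp only [SimpleGraph.Subgraph.iSup_adj, SimpleGraph.Subgraph.induce_adj,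
      SimpleGraph.Subgraph.top_adj]
    refine ⟨fun ⟨_, h⟩ => h.2.2, fun h => ?_⟩
    obtain ⟨n, hn⟩ := mem_ball hc r u
    exact ⟨n + 1, Or.inl hn, ball_adj hn h, h⟩

theorem isFUSF_Phi (hc : G.Connected) (hG : ∀ v, (G.neighborSet v).Finite) :
    IsFUSF G ((iidUniform V).map (Phi G)) := by
  have := countable_of_conn hc hG
  have hX : Measurable (Xhat G) := measurable_Xhat measurable_const measurable_id
  rw [map_Phi hG]
  refine ⟨Measure.isProbabilityMeasure_map hX.aemeasurable, exists_exhaustion hc hG,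
    fun H hH F A => ?_⟩
  choose P h1 h2 h3 using fun n => exists_fin (H n) (hH.1 n).1 (hH.1 n).2
  have hex : ∀ e ∈ G.edgeSet, ∀ᶠ n in atTop, e ∈ (P n).2 := by
    intro e he
    have : e ∈ (⨆ n, H n).edgeSet := by rw [hH.2.2]; exact he
    rw [SimpleGraph.Subgraph.edgeSet_iSup] at this
    obtain ⟨n, hn⟩ := Set.mem_iUnion.1 this
    filter_upwards [eventually_ge_atTop n] with m hm
    rw [← Finset.mem_coe, h2]
    exact SimpleGraph.Subgraph.edgeSet_mono (hH.2.1 hm) hn
  have hms : MeasurableSet {T : Set (Sym2 V) | ∀ e ∈ F, (e ∈ T ↔ e ∈ A)} :=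
    Measurable.setOf (Measurable.forall fun e => Measurable.imp measurable_const
      (Measurable.iff (measurable_set_mem e) measurable_const))
  rw [map_measureReal_apply hX hms]
  refine (law_Xhat h1 hex F A).congr fun n => ?_
  rw [h3]
  congr

lemma cayley_conn {Γ : Type*} [Group Γ] {S : Set Γ} (hS : Subgroup.closure S = ⊤) :
    (SimpleGraph.mulCayley S).Connected := by
  rw [SimpleGraph.connected_iff_exists_forall_reachable]
  refine ⟨1, fun g => ?_⟩
  have hadj : ∀ x s, s ∈ S → (SimpleGraph.mulCayley S).Reachable x (x * s) := by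
    intro x s hs
    by_cases h : x = x * s
    · rw [← h]
    · exact SimpleGraph.Adj.reachable
        ((SimpleGraph.mulCayley_adj' S _ _).2 ⟨h, s, hs, Or.inl rfl⟩)
  refine Subgroup.closure_induction_right (p := fun g _ => (SimpleGraph.mulCayley S).Reachable 1 g)
    (SimpleGraph.Reachable.refl _) (fun x _ s hs h => h.trans (hadj x s hs))
    (fun x _ s hs h => h.trans ?_) (hS ▸ Subgroup.mem_top g)
  simpa using (hadj (x * s⁻¹) s hs).symm

lemma cayley_fin {Γ : Type*} [Group Γ] {S : Set Γ} (hS : S.Finite) (v : Γ) :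
    ((SimpleGraph.mulCayley S).neighborSet v).Finite := by
  refine ((hS.image fun s => v * s).union (hS.image fun s => v * s⁻¹)).subset fun u hu => ?_
  obtain ⟨_, s, hs, h | h⟩ := (SimpleGraph.mulCayley_adj' S v u).1 hu
  · exact Or.inl ⟨s, hs, h⟩
  · exact Or.inr ⟨s, hs, by simp [h]⟩

def cayleyIso {Γ : Type*} [Group Γ] (S : Set Γ) (γ : Γ) :
    SimpleGraph.mulCayley S ≃g SimpleGraph.mulCayley S where
  toEquiv := Equiv.mulLeft γ
  map_rel_iff' := SimpleGraph.mulCayley_adj_mul_iff_right

end Vale.Agent.P143
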