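import Mathlib

namespace Vale.Agent.P143

open MeasureTheory Filter Topology

/-- `T` is the edge set of a spanning tree of the subgraph `H`. -/
def IsSpanningTree {V : Type*} {G : SimpleGraph V} (H : G.Subgraph) (T : Set (Sym2 V)) : Prop :=
  T ⊆ H.edgeSet ∧ ((SimpleGraph.fromEdgeSet T).induce H.verts).IsTree

/-- Probability that a uniformly random spanning tree of the finite subgraph `H` lies in `A`. -/
noncomputable def ustProb {V : Type*} {G : SimpleGraph V} (H : G.Subgraph)
    (A : Set (Set (Sym2 V))) : ℝ :=
  (Set.ncard {T | IsSpanningTree H T ∧ T ∈ A} : ℝ) / (Set.ncard {T | IsSpanningTree H T} : ℝ)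

/-- An increasing sequence of finite connected subgraphs with union `G`. -/
def IsExhaustion {V : Type*} (G : SimpleGraph V) (H : ℕ → G.Subgraph) : Prop :=
  (∀ n, (H n).verts.Finite ∧ (H n).Connected) ∧ Monotone H ∧ ⨆ n, H n = ⊤

/-- `μ` is the free uniform spanning forest of `G`: a probability measure on edge sets which is
the weak limit (convergence on all cylinder events) of the uniform spanning trees along every
exhaustion; and an exhaustion exists. -/
def IsFUSF {V : Type*} (G : SimpleGraph V) (μ : Measure (Set (Sym2 V))) : Prop :=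
  IsProbabilityMeasure μ ∧ (∃ H, IsExhaustion G H) ∧
    ∀ H, IsExhaustion G H → ∀ (F : Finset (Sym2 V)) (A : Set (Sym2 V)),
      Tendsto (fun n => ustProb (H n) {T | ∀ e ∈ F, (e ∈ T ↔ e ∈ A)}) atTop
        (𝓝 (μ.real {T | ∀ e ∈ F, (e ∈ T ↔ e ∈ A)}))

/-- The law of i.i.d. Uniform[0,1] labels on `V`. -/
noncomputable def iidUniform (V : Type*) : Measure (V → unitInterval) :=
  Measure.infinitePi fun _ => (volume : Measure unitInterval)

end Vale.Agent.P143
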