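import Vale.Agent.P143.Law

namespace Vale.Agent.P143

open Real MeasureTheory Filter Topology Finset
open scoped Classical

variable {V V' : Type*}

def s2 (σ : V ≃ V') : Sym2 V ≃ Sym2 V' where
  toFun := Sym2.map σ
  invFun := Sym2.map σ.symm
  left_inv e := by induction e using Sym2.ind; simp
  right_inv e := by induction e using Sym2.ind; simp

@[simp] lemma s2_mk (σ : V ≃ V') (x y : V) : s2 σ s(x, y) = s(σ x, σ y) := rfl

@[simp] lemma s2_symm (σ : V ≃ V') : (s2 σ).symm = s2 σ.symm := rfl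

lemma reach_map (σ : V ≃ V') {T : Finset (Sym2 V)} {T' : Finset (Sym2 V')}
    (h : ∀ e ∈ T, s2 σ e ∈ T') {x y : V} (hxy : Reach T x y) : Reach T' (σ x) (σ y) :=
  reach_ind (fun z => Reach T' (σ x) (σ z))
    (fun u v huv hu => hu.trans (reach_edge (h s(u, v) huv))) hxy (SimpleGraph.Reachable.refl _)

lemma isTr_map (σ : V ≃ V') (W : Finset V) (T : Finset (Sym2 V)) :
    IsTr (W.map σ.toEmbedding) (T.map (s2 σ).toEmbedding) ↔ IsTr W T := by
  unfold IsTr
  rw [card_map, card_map]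
  refine and_congr_left fun _ => ⟨fun h x hx y hy => ?_, fun h x hx y hy => ?_⟩
  · have := reach_map σ.symm (T' := T) (fun e he => by simpa using he)
      (h (σ x) (by simpa using hx) (σ y) (by simpa using hy))
    simpa using this
  · have := reach_map σ (T' := T.map (s2 σ).toEmbedding) (fun e he => by simpa using he)
      (h (σ.symm x) (by simpa using hx) (σ.symm y) (by simpa using hy))
    simpa using this

lemma mem_trees_map (σ : V ≃ V') (W : Finset V) (E T : Finset (Sym2 V)) :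
    T ∈ trees W E ↔ (s2 σ).finsetCongr T ∈
      trees (W.map σ.toEmbedding) (E.map (s2 σ).toEmbedding) := by
  simp only [trees, mem_filter, mem_powerset, Equiv.finsetCongr_apply, isTr_map, map_subset_map]

lemma marg_map (σ : V ≃ V') (W : Finset V) (E : Finset (Sym2 V)) (w : Sym2 V' → ℝ) (e : Sym2 V) :
    marg (W.map σ.toEmbedding) (E.map (s2 σ).toEmbedding) w (s2 σ e) =
      marg W E (fun f => w (s2 σ f)) e := by
  unfold marg Zs
  congr 1
  · symm
    refine sum_equiv (s2 σ).finsetCongr (fun T => ?_) fun T _ => ?_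
    · simp only [mem_filter, ← mem_trees_map]
      simp
    · simp
  · symm
    exact sum_equiv (s2 σ).finsetCongr (mem_trees_map σ W E) fun T _ => by simp

variable {G : SimpleGraph V} {G' : SimpleGraph V'}

lemma s2_edge (σ : G ≃g G') (e : Sym2 V) : s2 σ.toEquiv e ∈ G'.edgeSet ↔ e ∈ G.edgeSet := by
  induction e using Sym2.ind with
  | _ x y => simpa using σ.map_adj_iff

lemma mG_map_le (σ : G ≃g G') {w : Sym2 V' → ℝ} (hw : ∀ f, 0 < w f) (e : Sym2 V) :
    mG G' w (s2 σ.toEquiv e) ≤ mG G (fun f => w (s2 σ.toEquiv f)) e := by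
  unfold mG
  simp only [s2_edge]
  split_ifs
  swap
  · exact le_rfl
  refine le_ciInf fun H => ?_
  refine (ciInf_le (term_bdd G' hw _) (H.1.map σ.toEquiv.toEmbedding,
    H.2.map (s2 σ.toEquiv).toEmbedding)).trans ?_
  by_cases h : Good G H ∧ e ∈ H.2
  · rw [term, term, if_pos h, if_pos, marg_map]
    refine ⟨⟨fun f hf => ?_, fun x y hxy => ?_, ?_⟩, by simpa using h.2⟩
    · obtain ⟨f', h1, rfl⟩ := mem_map.1 hf
      exact (s2_edge σ f').2 (h.1.1 f' h1)
    · have := h.1.2.1 (σ.toEquiv.symm x) (σ.toEquiv.symm y) (mem_map_equiv.1 hxy)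
      refine ⟨fun hh => this.1 (by rw [hh]), ?_, ?_⟩
      · exact mem_map_equiv.2 this.2.1
      · exact mem_map_equiv.2 this.2.2
    · obtain ⟨T, hT⟩ := h.1.2.2
      exact ⟨_, (mem_trees_map σ.toEquiv _ _ T).1 hT⟩
  · rw [term.eq_1 G, if_neg h]
    exact term_le_one _ hw _ _

lemma mG_map (σ : G ≃g G') {w : Sym2 V' → ℝ} (hw : ∀ f, 0 < w f) (e : Sym2 V) :
    mG G' w (s2 σ.toEquiv e) = mG G (fun f => w (s2 σ.toEquiv f)) e := by
  refine le_antisymm (mG_map_le σ hw e) ?_
  have := mG_map_le σ.symm (w := fun f => w (s2 σ.toEquiv f)) (fun f => hw _) (s2 σ.toEquiv e)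
  have e1 : ∀ f, s2 σ.symm.toEquiv (s2 σ.toEquiv f) = f := (s2 σ.toEquiv).left_inv
  have e2 : ∀ f, s2 σ.toEquiv (s2 σ.symm.toEquiv f) = f := (s2 σ.toEquiv).right_inv
  simpa only [e1, e2] using this

lemma eul_map (σ : G ≃g G') (g : Sym2 V' → ℝ) (h : ℝ) (k : ℕ) :
    (fun e => eul (vG G') h g k (s2 σ.toEquiv e)) =
      eul (vG G) h (fun e => g (s2 σ.toEquiv e)) k := by
  induction k with
  | zero => rfl
  | succ k ih =>
    funext e
    simp only [eul, vG]
    rw [mG_map σ (fun _ => wt_pos _ _), ← ih]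

lemma Xhat_map (σ : G ≃g G') (g : Sym2 V' → ℝ) :
    Xhat G' g = Sym2.map σ '' Xhat G (fun e => g (s2 σ.toEquiv e)) := by
  ext e'
  obtain ⟨e, rfl⟩ := (s2 σ.toEquiv).surjective e'
  have : s2 σ.toEquiv e ∈ Sym2.map σ '' Xhat G (fun e => g (s2 σ.toEquiv e)) ↔
      e ∈ Xhat G (fun e => g (s2 σ.toEquiv e)) :=
    (s2 σ.toEquiv).injective.mem_set_image
  rw [this]
  simp only [Xhat, Set.mem_ofPred_eq, Zd, ← eul_map σ]

end Vale.Agent.P143
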