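import Mathlib

namespace Vale.Agent.P143

open Filter Topology

variable {ι : Type*}

structure LipD (S : Set ι) (v : ℝ → (ι → ℝ) → ι → ℝ) : Prop where
  nonneg : ∀ t y e, 0 ≤ v t y e
  le_one : ∀ t y e, v t y e ≤ 1
  lip : ∀ t t' y y' s d, |t - t'| ≤ s → (∀ f ∈ S, |y f - y' f| ≤ d) → 0 ≤ d →
    ∀ e, |v t y e - v t' y' e| ≤ 2 * s + 4 * d

noncomputable def eul (v : ℝ → (ι → ℝ) → ι → ℝ) (h : ℝ) (g : ι → ℝ) : ℕ → ι → ℝ
  | 0 => g
  | k + 1 => fun e => eul v h g k e + h * v (k * h) (eul v h g k) e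

variable {S : Set ι} {v : ℝ → (ι → ℝ) → ι → ℝ}

lemma eul_move (hv : LipD S v) {h : ℝ} (hh : 0 ≤ h) (g : ι → ℝ) (k j : ℕ) (e : ι) :
    |eul v h g (k + j) e - eul v h g k e| ≤ j * h := by
  induction j with
  | zero => simp
  | succ j ih =>
    rw [← add_assoc, eul]
    have h1 := hv.nonneg (((k + j : ℕ) : ℝ) * h) (eul v h g (k + j)) e
    have h2 := hv.le_one (((k + j : ℕ) : ℝ) * h) (eul v h g (k + j)) e
    have h3 := mul_nonneg hh h1
    have h4 := mul_le_of_le_one_right hh h2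
    rw [abs_le] at ih ⊢
    push_cast at *
    constructor <;> linarith [ih.1, ih.2]

lemma eul_local (hv : LipD S v) (h : ℝ) {g g' : ι → ℝ} (hg : ∀ f ∈ S, g f = g' f) (k : ℕ) :
    ∀ e ∈ S, eul v h g k e = eul v h g' k e := by
  induction k with
  | zero => exact hg
  | succ k ih =>
    intro e he
    have := hv.lip (k * h) (k * h) (eul v h g k) (eul v h g' k) 0 0 (by simp)
      (fun f hf => by simp [ih f hf]) le_rfl e
    simp only [mul_zero, add_zero, abs_nonpos_iff, sub_eq_zero] at this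
    simp only [eul, ih e he, this]

lemma eul_compare (hv : LipD S v) {h : ℝ} (hh : 0 < h) {M : ℕ} (hM : 0 < M) (g : ι → ℝ) (k : ℕ) :
    ∀ e, |eul v (h / M) g (M * k) e - eul v h g k e| ≤ 3 / 2 * h * ((1 + 4 * h) ^ k - 1) := by
  have hM' : (0 : ℝ) < M := by exact_mod_cast hM
  have hh' : 0 < h / M := div_pos hh hM'
  induction k with
  | zero => intro e; simp [eul]
  | succ k ih =>
    set d := 3 / 2 * h * ((1 + 4 * h) ^ k - 1) with hd
    have hd0 : 0 ≤ d := by
      have : (1 : ℝ) ≤ (1 + 4 * h) ^ k := one_le_pow₀ (by linarith)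
      exact mul_nonneg (by linarith) (by linarith)
    have inner : ∀ j ≤ M, ∀ e, |eul v (h / M) g (M * k + j) e - eul v (h / M) g (M * k) e -
        j * (h / M) * v (k * h) (eul v h g k) e| ≤ j * (h / M) * (6 * h + 4 * d) := by
      intro j hj
      induction j with
      | zero => intro e; simp
      | succ j ihj =>
        intro e
        have a1 := ihj (by omega) e
        have hj' : (j : ℝ) ≤ M := by exact_mod_cast (by omega : j ≤ M)
        have hjh : (j : ℝ) * (h / M) ≤ h := by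
          calc (j : ℝ) * (h / M) ≤ M * (h / M) := by gcongr
            _ = h := by field_simp
        have a2 := hv.lip (((M * k + j : ℕ) : ℝ) * (h / M)) (k * h) (eul v (h / M) g (M * k + j))
          (eul v h g k) h (h + d) (by
            have : ((M * k + j : ℕ) : ℝ) * (h / M) - k * h = j * (h / M) := by
              push_cast; field_simp; ring
            rw [this, abs_of_nonneg (by positivity)]; exact hjh)
          (fun f _ => by
            have b1 := eul_move hv hh'.le g (M * k) j f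
            have b2 := ih f
            rw [abs_le] at b1 b2 ⊢
            constructor <;> linarith [b1.1, b1.2, b2.1, b2.2]) (by linarith) e
        rw [← add_assoc, eul]
        set A := v (((M * k + j : ℕ) : ℝ) * (h / M)) (eul v (h / M) g (M * k + j)) e
        set B := v (k * h) (eul v h g k) e
        have a3 : |h / M * (A - B)| ≤ h / M * (6 * h + 4 * d) := by
          rw [abs_mul, abs_of_pos hh']
          gcongr; linarith
        rw [abs_le] at a1 a3 ⊢
        rw [Nat.cast_succ]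
        constructor <;> nlinarith [a1.1, a1.2, a3.1, a3.2]
    intro e
    have a1 := inner M le_rfl e
    have e1 : (M : ℝ) * (h / M) = h := by field_simp
    rw [e1] at a1
    have a2 := ih e
    rw [mul_add, mul_one]
    have e2 : 3 / 2 * h * ((1 + 4 * h) ^ (k + 1) - 1) = d + h * (6 * h + 4 * d) := by
      rw [hd]; ring
    rw [e2]
    have e3 : eul v h g (k + 1) e = eul v h g k e + h * v (k * h) (eul v h g k) e := rfl
    rw [e3]
    rw [abs_le] at a1 a2 ⊢
    constructor <;> linarith [a1.1, a1.2, a2.1, a2.2]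

lemma eul_tendsto {vn : ℕ → ℝ → (ι → ℝ) → ι → ℝ}
    (hv : ∀ t y (yn : ℕ → ι → ℝ), (∀ f, Tendsto (fun n => yn n f) atTop (𝓝 (y f))) →
      ∀ e, Tendsto (fun n => vn n t (yn n) e) atTop (𝓝 (v t y e))) (h : ℝ) (g : ι → ℝ) (k : ℕ) :
    ∀ e, Tendsto (fun n => eul (vn n) h g k e) atTop (𝓝 (eul v h g k e)) := by
  induction k with
  | zero => intro e; exact tendsto_const_nhds
  | succ k ih =>
    intro e
    exact (ih e).add ((hv _ _ _ ih e).const_mul h)

def NN (T : ℕ) : ℕ := 2 * 128 ^ T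

lemma NN_pos (T : ℕ) : 0 < NN T := by unfold NN; positivity

noncomputable def Zd (v : ℝ → (ι → ℝ) → ι → ℝ) (g : ι → ℝ) (T : ℕ) : ι → ℝ :=
  eul v (1 / NN T) g (NN T * T)

lemma Zd_err (hv : LipD S v) (g : ι → ℝ) (T : ℕ) {M : ℕ} (hM : 0 < M) (e : ι) :
    |eul v (1 / NN T / M) g (M * (NN T * T)) e - Zd v g T e| ≤ (1 / 2) ^ T := by
  have hN : (0 : ℝ) < NN T := by exact_mod_cast NN_pos T
  refine (eul_compare hv (by positivity) hM g (NN T * T) e).trans ?_
  have h1 : (1 + 4 * (1 / (NN T : ℝ))) ^ (NN T * T) ≤ 64 ^ T := by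
    rw [pow_mul]
    gcongr
    calc (1 + 4 * (1 / (NN T : ℝ))) ^ NN T ≤ Real.exp (4 * (1 / (NN T : ℝ))) ^ NN T := by
          gcongr; linarith [Real.add_one_le_exp (4 * (1 / (NN T : ℝ)))]
      _ = Real.exp 1 ^ 4 := by
          rw [← Real.exp_nat_mul, ← Real.exp_nat_mul]; congr 1; field_simp; norm_num
      _ ≤ 2.7182818286 ^ 4 := by gcongr; exact Real.exp_one_lt_d9.le
      _ ≤ 64 := by norm_num
  have h2 : (NN T : ℝ) = 2 * (64 ^ T * 2 ^ T) := by
    unfold NN; push_cast; rw [← mul_pow]; norm_num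
  calc 3 / 2 * (1 / (NN T : ℝ)) * ((1 + 4 * (1 / (NN T : ℝ))) ^ (NN T * T) - 1)
      ≤ 2 * (1 / (NN T : ℝ)) * 64 ^ T := by
        have : (1 : ℝ) ≤ (1 + 4 * (1 / (NN T : ℝ))) ^ (NN T * T) :=
          one_le_pow₀ (by have : 0 ≤ 4 * (1 / (NN T : ℝ)) := by positivity
                          linarith)
        refine mul_le_mul ?_ (by linarith) (by linarith) (by positivity)
        gcongr; norm_num
    _ = (1 / 2) ^ T := by rw [h2, one_div_pow]; field_simp

lemma Zd_step (hv : LipD S v) (g : ι → ℝ) (T : ℕ) (e : ι) :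
    |Zd v g (T + 1) e - Zd v g T e| ≤ 2 := by
  have hN : (0 : ℝ) < NN T := by exact_mod_cast NN_pos T
  have h1 := Zd_err hv g T (M := 128) (by norm_num) e
  have e1 : NN (T + 1) = 128 * NN T := by unfold NN; ring
  have e2 : (1 : ℝ) / NN (T + 1) = 1 / NN T / (128 : ℕ) := by
    rw [e1]; push_cast; field_simp
  have h2 := eul_move hv (h := 1 / NN T / (128 : ℕ)) (by positivity) g (128 * (NN T * T))
    (128 * NN T) e
  have e3 : ((128 * NN T : ℕ) : ℝ) * (1 / NN T / (128 : ℕ)) = 1 := by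
    push_cast; field_simp
  have e4 : Zd v g (T + 1) e =
      eul v (1 / NN T / (128 : ℕ)) g (128 * (NN T * T) + 128 * NN T) e := by
    rw [Zd, e2, e1]; congr 1; ring
  rw [e3, ← e4] at h2
  have h3 : ((1 : ℝ) / 2) ^ T ≤ 1 := pow_le_one₀ (by norm_num) (by norm_num)
  rw [abs_le] at h1 h2 ⊢
  constructor <;> linarith [h1.1, h1.2, h2.1, h2.2]

end Vale.Agent.P143
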