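import Vale.Agent.P143.Nice
import Vale.Agent.P143.Euler

namespace Vale.Agent.P143

open Real MeasureTheory Filter Topology Finset
open scoped Classical

variable {ι : Type*}

noncomputable def mg (𝒯 : Finset (Finset ι)) (w : ι → ℝ) (e : ι) : ℝ :=
  (∑ X ∈ 𝒯.filter (fun X => e ∈ X), ∏ f ∈ X, w f) / ∑ X ∈ 𝒯, ∏ f ∈ X, w f

noncomputable def vF (𝒯 : Finset (Finset ι)) (t : ℝ) (y : ι → ℝ) (e : ι) : ℝ :=
  mg 𝒯 (fun f => wt t (y f)) e

noncomputable def avg (𝒯 : Finset (Finset ι)) (t : ℝ) (f : (ι → ℝ) → ℝ) : ℝ :=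
  (∑ X ∈ 𝒯, ∫ g, f (fun e => g e + t * ind X e) ∂PP ι) / 𝒯.card

variable {𝒯 : Finset (Finset ι)} {S : Finset ι}

lemma vF_eq (t : ℝ) (y : ι → ℝ) (e : ι) : vF 𝒯 t y e =
    (∑ X ∈ 𝒯, ind X e * ∏ f ∈ X, wt t (y f)) * (∑ X ∈ 𝒯, ∏ f ∈ X, wt t (y f))⁻¹ := by
  rw [vF, mg, sum_filter, div_eq_mul_inv]
  congr 1
  refine sum_congr rfl fun X _ => ?_
  unfold ind; split_ifs <;> simp

lemma nice_vF (hne : 𝒯.Nonempty) (hS : ∀ X ∈ 𝒯, X ⊆ S) (T : ℝ) :
    Nice S fun (p : Set.Icc (0 : ℝ) T × ι) y => vF 𝒯 p.1 y p.2 := by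
  simp only [vF_eq]
  have n1 : ∀ X ∈ 𝒯, Nice S fun (p : Set.Icc (0 : ℝ) T × ι) y => ∏ f ∈ X, wt p.1 (y f) :=
    fun X hX => Nice.prod X fun f hf =>
      Nice.wt (hS X hX hf) (fun p : Set.Icc (0 : ℝ) T × ι => (p.1 : ℝ)) (fun p => p.1.2.1)
        (fun p => p.1.2.2)
  refine Nice.mul (Nice.sum 𝒯 fun X hX => Nice.mul (Nice.const
    (fun p : Set.Icc (0 : ℝ) T × ι => ind X p.2) (C := 1) fun p => ?_) (n1 X hX)) ?_
  · unfold ind; split_ifs <;> simp
  obtain ⟨X₀, hX₀⟩ := hne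
  refine Nice.inv (Nice.sum 𝒯 n1) (c := (exp (-T)) ^ X₀.card) (by positivity) fun p y => ?_
  refine le_trans ?_ (single_le_sum (f := fun X => ∏ f ∈ X, wt p.1 (y f))
    (fun X _ => prod_nonneg fun f _ => (wt_pos _ _).le) hX₀)
  rw [← prod_const]
  refine prod_le_prod (fun _ _ => (exp_pos _).le) fun f _ => ?_
  have h1 := one_le_wt p.1 (y f)
  rw [abs_of_nonneg p.1.2.1] at h1
  have h2 := wt_pos p.1 (y f)
  rw [exp_neg, inv_le_iff_one_le_mul₀' (exp_pos _)]
  exact h1.trans (by gcongr; exact p.1.2.2)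

lemma integrable_bdd {k : (ι → ℝ) → ℝ} (hk : Measurable k) {C : ℝ} (hC : ∀ y, |k y| ≤ C) :
    Integrable k (PP ι) :=
  Integrable.of_bound hk.aestronglyMeasurable C (Eventually.of_forall hC)

lemma measurable_shift (t : ℝ) (X : Finset ι) :
    Measurable fun (g : ι → ℝ) e => g e + t * ind X e := by fun_prop

lemma measurable_vF (t : ℝ) (e : ι) : Measurable fun y => vF 𝒯 t y e := by
  simp only [vF_eq]
  have : ∀ X : Finset ι, Measurable fun y : ι → ℝ => ∏ f ∈ X, wt t (y f) := fun X =>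
    Finset.measurable_prod _ fun f _ => (continuous_wt t).measurable.comp (measurable_pi_apply f)
  exact (Finset.measurable_sum _ fun X _ => (this X).const_mul _).mul
    (Finset.measurable_sum _ fun X _ => this X).inv

lemma first_order (hne : 𝒯.Nonempty) (t : ℝ) (e : ι) {k : (ι → ℝ) → ℝ} (hk : Measurable k)
    {C : ℝ} (hC : ∀ y, |k y| ≤ C) (hv : ∀ y, |vF 𝒯 t y e| ≤ 1) :
    ∑ X ∈ 𝒯, ∫ g, k (fun e => g e + t * ind X e) *
      (ind X e - vF 𝒯 t (fun e => g e + t * ind X e) e) ∂PP ι = 0 := by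
  have hm : ∀ X : Finset ι, Measurable fun y => k y * (ind X e - vF 𝒯 t y e) := fun X =>
    hk.mul (measurable_const.sub (measurable_vF t e))
  have hp : ∀ X : Finset ι, Measurable fun y : ι → ℝ => ∏ f ∈ X, wt t (y f) := fun X =>
    Finset.measurable_prod _ fun f _ => (continuous_wt t).measurable.comp (measurable_pi_apply f)
  simp_rw [fun X => integral_shift t X (hm X)]
  rw [← integral_finsetSum]
  · refine integral_eq_zero_of_ae (Eventually.of_forall fun y => ?_)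
    have hZ : 0 < ∑ X ∈ 𝒯, ∏ f ∈ X, wt t (y f) :=
      sum_pos (fun _ _ => prod_pos fun _ _ => wt_pos _ _) hne
    have : ∑ X ∈ 𝒯, (∏ f ∈ X, wt t (y f)) * (k y * (ind X e - vF 𝒯 t y e)) =
        k y * (∑ X ∈ 𝒯, ind X e * ∏ f ∈ X, wt t (y f) -
          vF 𝒯 t y e * ∑ X ∈ 𝒯, ∏ f ∈ X, wt t (y f)) := by
      rw [mul_sum, ← sum_sub_distrib, mul_sum]
      exact sum_congr rfl fun X _ => by ring
    simp only [Pi.zero_apply]
    rw [this, vF_eq, inv_mul_cancel_right₀ hZ.ne', sub_self, mul_zero]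
  · intro X _
    refine integrable_bdd ((hp X).mul (hm X)) (C := exp |t| ^ X.card * (C * 2)) fun y => ?_
    rw [abs_mul, abs_mul]
    have hC0 : 0 ≤ C := (abs_nonneg _).trans (hC y)
    gcongr
    · rw [abs_of_pos (prod_pos fun _ _ => wt_pos _ _), ← prod_const]
      exact prod_le_prod (fun _ _ => (wt_pos _ _).le) fun _ _ => wt_le_exp _ _
    · exact hC y
    · refine (abs_sub _ _).trans ?_
      have : |ind X e| ≤ 1 := by unfold ind; split_ifs <;> simp
      linarith [hv y]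

noncomputable def step (𝒯 : Finset (Finset ι)) (t h : ℝ) (y : ι → ℝ) : ι → ℝ :=
  fun e => y e + h * vF 𝒯 t y e

lemma measurable_step (t h : ℝ) : Measurable (step 𝒯 t h) :=
  measurable_pi_iff.2 fun e => (measurable_pi_apply e).add ((measurable_vF t e).const_mul h)

lemma one_step (hne : 𝒯.Nonempty) (t : ℝ) {h : ℝ} (hh : 0 ≤ h) {f : (ι → ℝ) → ℝ} {A B C : ℝ}
    (hf : T2 S A B f) (hC : ∀ y, |f y| ≤ C) (hv : ∀ y e, |vF 𝒯 t y e| ≤ 1) :
    |avg 𝒯 (t + h) f - avg 𝒯 t (fun y => f (step 𝒯 t h y))| ≤ 2 * B * h ^ 2 := by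
  obtain ⟨D, d1, d2, d3⟩ := hf.der
  have hcard : (0 : ℝ) < 𝒯.card := by exact_mod_cast card_pos.2 hne
  have hD : ∀ e ∈ S, ∀ y, |D e y| ≤ A := fun e he y =>
    (single_le_sum (f := fun e => |D e y|) (fun _ _ => abs_nonneg _) he).trans (d2 y)
  have hind : ∀ (X : Finset ι) e, |ind X e| ≤ 1 := fun X e => by
    unfold ind; split_ifs <;> simp
  set L : Finset ι → ι → (ι → ℝ) → ℝ := fun X e g => D e (fun e => g e + t * ind X e) *
      (ind X e - vF 𝒯 t (fun e => g e + t * ind X e) e) with hL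
  have hLi : ∀ X, ∀ e ∈ S, Integrable (L X e) (PP ι) := by
    intro X e he
    refine integrable_bdd (((d1 e).mul (measurable_const.sub (measurable_vF t e))).comp
      (measurable_shift t X)) (C := A * 2) fun y => ?_
    simp only [hL]
    rw [abs_mul]
    refine mul_le_mul (hD e he _) ((abs_sub _ _).trans ?_) (abs_nonneg _)
      ((abs_nonneg _).trans (hD e he y))
    linarith [hind X e, hv (fun e => y e + t * ind X e) e]
  have hzero : ∑ X ∈ 𝒯, ∑ e ∈ S, h * ∫ g, L X e g ∂PP ι = 0 := by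
    rw [sum_comm]
    refine sum_eq_zero fun e he => ?_
    rw [← mul_sum, first_order hne t e (d1 e) (hD e he) (fun y => hv y e), mul_zero]
  have hX : ∀ X ∈ 𝒯, |∫ g, f (fun e => g e + (t + h) * ind X e) ∂PP ι -
      ∫ g, f (step 𝒯 t h fun e => g e + t * ind X e) ∂PP ι -
        ∑ e ∈ S, h * ∫ g, L X e g ∂PP ι| ≤ 2 * B * h ^ 2 := by
    intro X _
    have i1 : Integrable (fun g : ι → ℝ => f (fun e => g e + (t + h) * ind X e)) (PP ι) :=
      integrable_bdd (hf.meas.comp (measurable_shift _ X)) fun y => hC _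
    have i2 : Integrable (fun g : ι → ℝ => f (step 𝒯 t h fun e => g e + t * ind X e)) (PP ι) :=
      integrable_bdd (hf.meas.comp ((measurable_step t h).comp (measurable_shift _ X)))
        fun y => hC _
    have i3 : Integrable (fun g : ι → ℝ => f (fun e => g e + (t + h) * ind X e) -
        f (step 𝒯 t h fun e => g e + t * ind X e)) (PP ι) := i1.sub i2
    simp_rw [← integral_const_mul]
    rw [← integral_finsetSum _ fun e he => (hLi X e he).const_mul h, ← integral_sub i1 i2,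
      ← integral_sub i3 (integrable_finsetSum _ fun e he => (hLi X e he).const_mul h)]
    have := norm_integral_le_of_norm_le_const (μ := PP ι) (C := 2 * B * h ^ 2)
      (f := fun g : ι → ℝ => f (fun e => g e + (t + h) * ind X e) -
        f (step 𝒯 t h fun e => g e + t * ind X e) - ∑ e ∈ S, h * L X e g)
      (Eventually.of_forall fun g => ?_)
    · simpa using this
    set y : ι → ℝ := fun e => g e + t * ind X e with hy
    have a1 := d3 y (fun e => g e + (t + h) * ind X e) h (fun e _ => by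
      have : g e + (t + h) * ind X e - y e = h * ind X e := by simp only [hy]; ring
      rw [this, abs_mul, abs_of_nonneg hh]
      exact mul_le_of_le_one_right hh (hind X e)) hh
    have a2 := d3 y (step 𝒯 t h y) h (fun e _ => by
      simp only [step, add_sub_cancel_left]
      rw [abs_mul, abs_of_nonneg hh]
      exact mul_le_of_le_one_right hh (hv y e)) hh
    have e1 : ∑ e ∈ S, h * L X e g = ∑ e ∈ S, D e y * (g e + (t + h) * ind X e - y e) -
        ∑ e ∈ S, D e y * (step 𝒯 t h y e - y e) := by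
      rw [← sum_sub_distrib]
      refine sum_congr rfl fun e _ => ?_
      simp only [hL, step, ← hy]
      have : g e + (t + h) * ind X e - y e = h * ind X e := by simp only [hy]; ring
      rw [this]; ring
    rw [Real.norm_eq_abs, e1]
    rw [abs_le] at a1 a2 ⊢
    constructor <;> linarith [a1.1, a1.2, a2.1, a2.2]
  unfold avg
  rw [← sub_div, ← sum_sub_distrib, abs_div, abs_of_pos hcard, div_le_iff₀ hcard,
    ← sub_zero (∑ X ∈ 𝒯, _), ← hzero, ← sum_sub_distrib]
  refine (abs_sum_le_sum_abs _ _).trans ((sum_le_sum hX).trans ?_)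
  rw [sum_const, nsmul_eq_mul, mul_comm]

lemma T2.comp_step {t h : ℝ} (hh : 0 ≤ h) {f : (ι → ℝ) → ℝ} {A B C : ℝ} (hf : T2 S A B f)
    (hC : 0 ≤ C) (hv : ∀ e, T2 S C C fun y => vF 𝒯 t y e) :
    T2 S (A * (1 + h * C)) (B * (1 + h * C) ^ 2 + h * A * C) fun y => f (step 𝒯 t h y) := by
  obtain ⟨D, d1, d2, d3⟩ := hf.der
  choose Dv v1 v2 v3 using fun e => (hv e).der
  have hstep : ∀ y y' r, (∀ e ∈ S, |y' e - y e| ≤ r) → 0 ≤ r → ∀ e ∈ S,
      |step 𝒯 t h y' e - step 𝒯 t h y e| ≤ (1 + h * C) * r := by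
    intro y y' r hr h0 e he
    have a1 := (hv e).lip y y' r hr h0
    have e1 : step 𝒯 t h y' e - step 𝒯 t h y e =
        (y' e - y e) + h * (vF 𝒯 t y' e - vF 𝒯 t y e) := by simp only [step]; ring
    rw [e1]
    refine (abs_add_le _ _).trans ?_
    rw [abs_mul, abs_of_nonneg hh]
    have := mul_le_mul_of_nonneg_left a1 hh
    linarith [hr e he]
  refine ⟨hf.meas.comp (measurable_step t h), fun y y' r hr h0 => ?_,
    fun e' y => D e' (step 𝒯 t h y) + h * ∑ e ∈ S, D e (step 𝒯 t h y) * Dv e e' y,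
    fun e' => ((d1 e').comp (measurable_step t h)).add (Measurable.const_mul
      (Finset.measurable_sum _ fun e _ => ((d1 e).comp (measurable_step t h)).mul (v1 e e')) h),
    fun y => ?_, fun y y' r hr h0 => ?_⟩
  · refine (hf.lip _ _ _ (hstep y y' r hr h0) (by positivity)).trans (le_of_eq (by ring))
  · calc ∑ e' ∈ S, |D e' (step 𝒯 t h y) + h * ∑ e ∈ S, D e (step 𝒯 t h y) * Dv e e' y|
        ≤ ∑ e' ∈ S, (|D e' (step 𝒯 t h y)| +
            h * ∑ e ∈ S, |D e (step 𝒯 t h y)| * |Dv e e' y|) := by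
          refine sum_le_sum fun e' _ => (abs_add_le _ _).trans ?_
          rw [abs_mul, abs_of_nonneg hh]
          gcongr
          refine (abs_sum_le_sum_abs _ _).trans (le_of_eq ?_)
          simp only [abs_mul]
      _ = ∑ e' ∈ S, |D e' (step 𝒯 t h y)| +
            h * ∑ e ∈ S, |D e (step 𝒯 t h y)| * ∑ e' ∈ S, |Dv e e' y| := by
          rw [sum_add_distrib, ← mul_sum, sum_comm]
          simp only [mul_sum]
      _ ≤ A + h * ∑ e ∈ S, |D e (step 𝒯 t h y)| * C := by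
          gcongr with e _
          · exact d2 _
          · exact v2 e y
      _ ≤ A + h * (A * C) := by
          rw [← sum_mul]; gcongr; exact d2 _
      _ = _ := by ring
  · have a1 := d3 _ _ _ (hstep y y' r hr h0) (by positivity)
    have e1 : ∑ e' ∈ S, (D e' (step 𝒯 t h y) + h * ∑ e ∈ S, D e (step 𝒯 t h y) * Dv e e' y) *
        (y' e' - y e') = ∑ e ∈ S, D e (step 𝒯 t h y) * (step 𝒯 t h y' e - step 𝒯 t h y e) -
          h * ∑ e ∈ S, D e (step 𝒯 t h y) * (vF 𝒯 t y' e - vF 𝒯 t y e -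
            ∑ e' ∈ S, Dv e e' y * (y' e' - y e')) := by
      simp only [add_mul, sum_add_distrib, mul_assoc, ← mul_sum, sum_mul]
      rw [sum_comm, mul_sum, mul_sum, ← sum_add_distrib, ← sum_sub_distrib]
      refine sum_congr rfl fun e _ => ?_
      rw [← mul_sum]
      have : ∀ z, step 𝒯 t h z e = z e + h * vF 𝒯 t z e := fun z => rfl
      rw [this y, this y']; ring
    have a2 : |∑ e ∈ S, D e (step 𝒯 t h y) * (vF 𝒯 t y' e - vF 𝒯 t y e -
        ∑ e' ∈ S, Dv e e' y * (y' e' - y e'))| ≤ A * (C * r ^ 2) := by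
      refine (abs_sum_le_sum_abs _ _).trans ?_
      calc _ ≤ ∑ e ∈ S, |D e (step 𝒯 t h y)| * (C * r ^ 2) := by
            refine sum_le_sum fun e _ => ?_
            rw [abs_mul]; gcongr; exact v3 e y y' r hr h0
        _ ≤ _ := by rw [← sum_mul]; gcongr; exact d2 _
    have a3 := mul_le_mul_of_nonneg_left a2 hh
    rw [← abs_of_nonneg hh, ← abs_mul, abs_of_nonneg hh] at a3
    rw [e1]
    rw [abs_le] at a1 a3 ⊢
    constructor <;> nlinarith [a1.1, a1.2, a3.1, a3.2]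

lemma measurable_eul_vF (h : ℝ) (k : ℕ) : Measurable fun g => eul (vF 𝒯) h g k := by
  induction k with
  | zero => exact measurable_id
  | succ k ih => exact (measurable_step (k * h) h).comp ih

lemma eul_law (hne : 𝒯.Nonempty) {T h C : ℝ} (hh : 0 ≤ h) (hC : 0 ≤ C)
    (hv : ∀ t ∈ Set.Icc 0 T, ∀ e, T2 S C C fun y => vF 𝒯 t y e)
    (hv1 : ∀ t y e, |vF 𝒯 t y e| ≤ 1) (k : ℕ) (hk : k * h ≤ T) {K : ℝ} :
    ∀ (f : (ι → ℝ) → ℝ) (A B : ℝ), 0 ≤ A → 0 ≤ B → T2 S A B f → (∀ y, |f y| ≤ K) →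
      |avg 𝒯 (k * h) f - ∫ g, f (eul (vF 𝒯) h g k) ∂PP ι| ≤
        2 * k * h ^ 2 * (B + k * h * A * C) * (1 + h * C) ^ (2 * k) := by
  induction k with
  | zero =>
    intro f A B _ _ _ _
    have hcard : (𝒯.card : ℝ) ≠ 0 := by exact_mod_cast (card_pos.2 hne).ne'
    simp [avg, eul, mul_div_cancel_left₀ _ hcard]
  | succ k ih =>
    intro f A B hA hB hf hK
    have hk' : (k : ℝ) * h ≤ T := by push_cast at hk; nlinarith
    have h1 := ih hk' (fun y => f (step 𝒯 (k * h) h y)) _ _ (by positivity) (by positivity)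
      (hf.comp_step hh hC (hv _ ⟨by positivity, hk'⟩)) (fun y => hK _)
    have h2 := one_step hne (k * h) hh hf hK (hv1 _)
    have e1 : ((k + 1 : ℕ) : ℝ) * h = k * h + h := by push_cast; ring
    have e2 : ∀ g, eul (vF 𝒯) h g (k + 1) = step 𝒯 (k * h) h (eul (vF 𝒯) h g k) := fun g => rfl
    simp only [e2]
    rw [e1]
    set q := 1 + h * C with hq
    have hq1 : 1 ≤ q := by rw [hq]; nlinarith [mul_nonneg hh hC]
    have hq2 : q ≤ q ^ 2 := by nlinarith
    have hq3 : 1 ≤ q ^ (2 * (k + 1)) := one_le_pow₀ hq1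
    have hP : 0 ≤ h * A * C := by positivity
    have b1 : B * q ^ 2 + h * A * C + k * h * (A * q) * C ≤
        (B + (k * h + h) * A * C) * q ^ 2 := by
      have c1 : h * A * C ≤ h * A * C * q ^ 2 := le_mul_of_one_le_right hP (hq1.trans hq2)
      have c2 : k * (h * A * C) * q ≤ k * (h * A * C) * q ^ 2 := by gcongr
      nlinarith
    have b2 : 2 * k * h ^ 2 * (B * q ^ 2 + h * A * C + k * h * (A * q) * C) * q ^ (2 * k) ≤
        2 * k * h ^ 2 * (B + (k * h + h) * A * C) * q ^ (2 * (k + 1)) := by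
      calc _ ≤ 2 * k * h ^ 2 * ((B + (k * h + h) * A * C) * q ^ 2) * q ^ (2 * k) := by gcongr
        _ = _ := by ring
    have b3 : 2 * B * h ^ 2 ≤ 2 * h ^ 2 * (B + (k * h + h) * A * C) * q ^ (2 * (k + 1)) := by
      calc 2 * B * h ^ 2 = 2 * h ^ 2 * B * 1 := by ring
        _ ≤ _ := by
          gcongr
          have : 0 ≤ (k * h + h) * A * C := by positivity
          linarith
    push_cast
    rw [abs_le] at h1 h2 ⊢
    constructor <;> nlinarith [h1.1, h1.2, h2.1, h2.2]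

theorem Zd_law (hne : 𝒯.Nonempty) (hS : ∀ X ∈ 𝒯, X ⊆ S) {S' : Set ι} (hv : LipD S' (vF 𝒯))
    {f : (ι → ℝ) → ℝ} {A : ℝ} (hA : 0 ≤ A) (hf : T2 S A A f) (hK : ∀ y, |f y| ≤ A) (T : ℕ) :
    |avg 𝒯 T f - ∫ g, f (Zd (vF 𝒯) g T) ∂PP ι| ≤ A * (1 / 2) ^ T := by
  obtain ⟨C, hC, hN⟩ := nice_vF hne hS (T : ℝ)
  have hv1 : ∀ t y e, |vF 𝒯 t y e| ≤ 1 := fun t y e => by
    rw [abs_of_nonneg (hv.nonneg t y e)]; exact hv.le_one t y e
  have hNp : (0 : ℝ) < NN T := by exact_mod_cast NN_pos T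
  set c := 2 * T * (A + T * A * C) * exp (2 * T * C) / NN T with hc
  have key : ∀ M : ℕ, 0 < M → |avg 𝒯 T f - ∫ g, f (Zd (vF 𝒯) g T) ∂PP ι| ≤
      A * (1 / 2) ^ T + c / M := by
    intro M hM
    have hM' : (0 : ℝ) < M := by exact_mod_cast hM
    set h : ℝ := 1 / NN T / M with hh
    have hh0 : 0 < h := by positivity
    have e1 : ((M * (NN T * T) : ℕ) : ℝ) * h = T := by
      rw [hh]; push_cast; field_simp
    have h1 := eul_law hne hh0.le hC (fun t ht e => (hN (⟨t, ht⟩, e)).2) hv1 (M * (NN T * T))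
      e1.le f A A hA hA hf hK
    rw [e1] at h1
    have h2 : |∫ g, f (eul (vF 𝒯) h g (M * (NN T * T))) ∂PP ι -
        ∫ g, f (Zd (vF 𝒯) g T) ∂PP ι| ≤ A * (1 / 2) ^ T := by
      have i1 : Integrable (fun g => f (eul (vF 𝒯) h g (M * (NN T * T)))) (PP ι) :=
        integrable_bdd (hf.meas.comp (measurable_eul_vF _ _)) fun y => hK _
      have i2 : Integrable (fun g => f (Zd (vF 𝒯) g T)) (PP ι) :=
        integrable_bdd (hf.meas.comp (measurable_eul_vF _ _)) fun y => hK _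
      rw [← integral_sub i1 i2]
      have := norm_integral_le_of_norm_le_const (μ := PP ι) (C := A * (1 / 2) ^ T)
        (f := fun g : ι → ℝ => f (eul (vF 𝒯) h g (M * (NN T * T))) - f (Zd (vF 𝒯) g T))
        (Eventually.of_forall fun g => hf.lip _ _ _ (fun e _ => Zd_err hv g T hM e)
          (by positivity))
      simpa using this
    have h3 : 2 * ((M * (NN T * T) : ℕ) : ℝ) * h ^ 2 * (A + T * A * C) *
        (1 + h * C) ^ (2 * (M * (NN T * T))) ≤ c / M := by
      have g1 : (1 + h * C) ^ (2 * (M * (NN T * T))) ≤ exp (2 * T * C) := by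
        calc (1 + h * C) ^ (2 * (M * (NN T * T))) ≤ exp (h * C) ^ (2 * (M * (NN T * T))) := by
              gcongr; linarith [add_one_le_exp (h * C)]
          _ = exp (2 * T * C) := by
              rw [← exp_nat_mul, ← e1]; congr 1; push_cast; ring
      calc _ ≤ 2 * ((M * (NN T * T) : ℕ) : ℝ) * h ^ 2 * (A + T * A * C) * exp (2 * T * C) := by
            gcongr
        _ = 2 * (((M * (NN T * T) : ℕ) : ℝ) * h) * h * (A + T * A * C) * exp (2 * T * C) := by
            ring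
        _ = c / M := by rw [e1, hc, hh]; field_simp
    rw [abs_le] at h1 h2 ⊢
    constructor <;> linarith [h1.1, h1.2, h2.1, h2.2]
  have hl : Tendsto (fun M : ℕ => A * (1 / 2) ^ T + c / M) atTop (𝓝 (A * (1 / 2) ^ T + 0)) :=
    tendsto_const_nhds.add (tendsto_const_div_atTop_nhds_zero_nat c)
  rw [add_zero] at hl
  exact ge_of_tendsto hl ((eventually_gt_atTop 0).mono key)

end Vale.Agent.P143
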