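import Vale.Agent.P143.Equiv
import Vale.Agent.P143.Defs

namespace Vale.Agent.P143

open Real MeasureTheory Filter Topology ProbabilityTheory
open scoped Classical

variable {V V' : Type*}

noncomputable def split : unitInterval → ℕ → ℝ :=
  Classical.choose (Measure.exists_measurable_map_eq (PP ℕ))

lemma measurable_split : Measurable split :=
  (Classical.choose_spec (Measure.exists_measurable_map_eq (PP ℕ))).1

lemma map_split : (volume : Measure unitInterval).map split = PP ℕ :=
  (Classical.choose_spec (Measure.exists_measurable_map_eq (PP ℕ))).2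

noncomputable def rank (G : SimpleGraph V) (o : V × ℕ → ℝ) (a b : V) : ℕ :=
  Set.ncard {c | G.Adj a c ∧ o (c, 0) < o (b, 0)}

noncomputable def noise0 (G : SimpleGraph V) (o W : V × ℕ → ℝ) : Sym2 V → ℝ :=
  Sym2.lift ⟨fun a b => if o (a, 0) < o (b, 0) then W (a, rank G o a b)
    else if o (b, 0) < o (a, 0) then W (b, rank G o b a) else 0, fun a b => by
      rcases lt_trichotomy (o (a, 0)) (o (b, 0)) with h | h | h
      · simp [h, h.not_gt]
      · simp [h]
      · simp [h, h.not_gt]⟩

lemma noise0_mk (G : SimpleGraph V) (o W : V × ℕ → ℝ) (a b : V) : noise0 G o W s(a, b) =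
    if o (a, 0) < o (b, 0) then W (a, rank G o a b)
    else if o (b, 0) < o (a, 0) then W (b, rank G o b a) else 0 := rfl

noncomputable def pair (U : V → unitInterval) : (V × ℕ → ℝ) × (V × ℕ → ℝ) :=
  (fun p => split (U p.1) (2 * p.2), fun p => split (U p.1) (2 * p.2 + 1))

noncomputable def Phi (G : SimpleGraph V) (U : V → unitInterval) : Set (Sym2 V) :=
  Xhat G (noise0 G (pair U).1 (pair U).2)

lemma measurable_pair : Measurable (pair : (V → unitInterval) → _) := by
  have := measurable_split
  unfold pair
  fun_prop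

lemma measurable_noise0 [Countable V] {Ω : Type*} [MeasurableSpace Ω] {G : Ω → SimpleGraph V}
    (hG : Measurable G) {o W : Ω → V × ℕ → ℝ} (ho : Measurable o) (hW : Measurable W) :
    Measurable fun ω => noise0 (G ω) (o ω) (W ω) := by
  have hlt : ∀ a b : V, MeasurableSet {ω | o ω (a, 0) < o ω (b, 0)} := fun a b =>
    measurableSet_lt ((measurable_pi_apply _).comp ho) ((measurable_pi_apply _).comp ho)
  have hr : ∀ a b : V, Measurable fun ω => W ω (a, rank (G ω) (o ω) a b) := by
    intro a b
    have h1 : Measurable fun ω => rank (G ω) (o ω) a b := by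
      refine measurable_ncard.comp (measurable_set_iff.2 fun c => ?_)
      exact (SimpleGraph.measurable_iff_adj.1 hG a c).and (measurableSet_setOfPred.1 (hlt c b))
    have h2 : Measurable fun p : (V × ℕ → ℝ) × ℕ => p.1 (a, p.2) :=
      measurable_from_prod_countable_left fun k => measurable_pi_apply (a, k)
    exact h2.comp (hW.prodMk h1)
  refine measurable_pi_iff.2 fun e => ?_
  induction e using Sym2.ind with
  | _ a b =>
    simp only [noise0_mk]
    exact Measurable.ite (hlt a b) (hr a b) (Measurable.ite (hlt b a) (hr b a) measurable_const)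

lemma measurable_Phi [Countable V] :
    Measurable fun p : SimpleGraph V × (V → unitInterval) => Phi p.1 p.2 :=
  measurable_Xhat measurable_fst (measurable_noise0 measurable_fst
    (measurable_pair.comp measurable_snd).fst (measurable_pair.comp measurable_snd).snd)

lemma measurable_Phi' [Countable V] (G : SimpleGraph V) : Measurable (Phi G) :=
  measurable_Xhat measurable_const (measurable_noise0 measurable_const
    measurable_pair.fst measurable_pair.snd)

lemma Phi_map {G : SimpleGraph V} {G' : SimpleGraph V'} (σ : G ≃g G') (U : V → unitInterval) :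
    Phi G' (fun v => U (σ.symm v)) = Sym2.map σ '' Phi G U := by
  unfold Phi
  rw [Xhat_map σ]
  congr 2
  funext e
  induction e using Sym2.ind with
  | _ a b =>
    have hr : ∀ a b : V, rank G' (pair fun v => U (σ.symm v)).1 (σ a) (σ b) =
        rank G (pair U).1 a b := by
      intro a b
      unfold rank
      rw [← Set.ncard_image_of_injective _ σ.injective]
      congr 1
      ext c
      obtain ⟨c, rfl⟩ := σ.surjective c
      rw [σ.injective.mem_set_image]
      simp [pair, σ.map_adj_iff]
    rw [s2_mk, noise0_mk, noise0_mk]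
    have h1 := hr a b
    have h2 := hr b a
    simp only [RelIso.coe_fn_toEquiv, h1, h2]
    simp [pair]

lemma map_pair : (iidUniform V).map pair = (PP (V × ℕ)).prod (PP (V × ℕ)) := by
  have h1 : (iidUniform V).map (fun U v => split (U v)) = Measure.infinitePi fun _ : V => PP ℕ := by
    rw [iidUniform, Measure.infinitePi_map_pi _ (f := fun _ => split) fun _ => measurable_split]
    simp only [map_split]
  have h2 := Measure.infinitePi_map_curry_symm (fun (_ : V) (_ : ℕ) => nu)
  set κ : Bool × (V × ℕ) → V × ℕ := fun p => (p.2.1, 2 * p.2.2 + p.1.toNat) with hκ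
  have hinj : Function.Injective κ := by
    rintro ⟨b, v, k⟩ ⟨b', v', k'⟩ h
    simp only [hκ, Prod.mk.injEq] at h
    obtain ⟨rfl, h⟩ := h
    cases b <;> cases b' <;> simp at h ⊢ <;> omega
  have h3 := Measure.map_infinitePi_infinitePi_of_inj (P := fun _ : V × ℕ => nu) hinj
  have h4 := Measure.infinitePi_map_curry (fun (_ : Bool) (_ : V × ℕ) => nu)
  have h5 := Measure.infinitePi_map_eval_prod (P := fun _ : Bool => PP (V × ℕ))
    (i := false) (j := true) (by simp)
  have hs := measurable_split
  rw [← h5]
  unfold PP at h1 ⊢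
  rw [← h4, ← h3, ← h2, ← h1, Measure.map_map, Measure.map_map, Measure.map_map, Measure.map_map]
  · rfl
  all_goals fun_prop

lemma ae_inj [Countable V] : ∀ᵐ o ∂PP (V × ℕ), ∀ a b : V, a ≠ b → o (a, 0) ≠ o (b, 0) := by
  refine ae_all_iff.2 fun a => ae_all_iff.2 fun b => ?_
  by_cases hab : a = b
  · simp [hab]
  have h1 := Measure.infinitePi_map_eval_prod (P := fun _ : V × ℕ => nu)
    (i := (a, 0)) (j := (b, 0)) (by simpa using hab)
  have h2 : ∀ᵐ p ∂(nu.prod nu), p.1 ≠ p.2 := by
    refine (Measure.ae_prod_iff_ae_ae
      (measurableSet_eq_fun measurable_fst measurable_snd).compl).2 ?_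
    exact Eventually.of_forall fun x => (Measure.ae_ne nu x).mono fun y hy => hy.symm
  rw [← h1] at h2
  have := ae_of_ae_map (by fun_prop) h2
  exact this.mono fun o ho _ => ho

lemma map_noise0 {G : SimpleGraph V} (hG : ∀ v, (G.neighborSet v).Finite) {o : V × ℕ → ℝ}
    (ho : ∀ a b : V, a ≠ b → o (a, 0) ≠ o (b, 0)) :
    ∃ κ : G.edgeSet → V × ℕ, Function.Injective κ ∧
      ∀ W (e : G.edgeSet), noise0 G o W e = W (κ e) := by
  have key : ∀ e : G.edgeSet, ∃ a b, e.1 = s(a, b) ∧ G.Adj a b ∧ o (a, 0) < o (b, 0) := by
    rintro ⟨e, he⟩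
    induction e using Sym2.ind with
    | _ a b =>
      have hab : G.Adj a b := he
      rcases lt_or_gt_of_ne (ho a b hab.ne) with h | h
      · exact ⟨a, b, rfl, hab, h⟩
      · exact ⟨b, a, Sym2.eq_swap, hab.symm, h⟩
  choose a b h1 h2 h3 using key
  have hlt : ∀ x y z, G.Adj x y → o (y, 0) < o (z, 0) → rank G o x y < rank G o x z := by
    intro x y z hxy hyz
    refine Set.ncard_lt_ncard ⟨fun c hc => ⟨hc.1, hc.2.trans hyz⟩, fun h => ?_⟩
      ((hG x).subset fun c hc => hc.1)
    exact lt_irrefl _ (h (show y ∈ _ from ⟨hxy, hyz⟩)).2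
  refine ⟨fun e => (a e, rank G o (a e) (b e)), fun e e' h => ?_, fun W e => ?_⟩
  · simp only [Prod.mk.injEq] at h
    obtain ⟨g1, g2⟩ := h
    have g3 : b e = b e' := by
      by_contra hne
      rcases lt_or_gt_of_ne (ho _ _ hne) with h | h
      · have := hlt (a e) _ _ (h2 e) h
        rw [g1] at this g2; omega
      · have := hlt (a e') _ _ (h2 e') h
        rw [g1] at g2; omega
    exact Subtype.ext (by rw [h1, h1, g1, g3])
  · rw [h1, noise0_mk, if_pos (h3 e)]

lemma law_noise [Countable V] {G : SimpleGraph V} (hG : ∀ v, (G.neighborSet v).Finite) :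
    ((PP (V × ℕ)).prod (PP (V × ℕ))).map (fun p (e : G.edgeSet) => noise0 G p.1 p.2 e) =
      PP G.edgeSet := by
  have hm : Measurable fun (p : (V × ℕ → ℝ) × (V × ℕ → ℝ)) (e : G.edgeSet) =>
      noise0 G p.1 p.2 e := measurable_pi_iff.2 fun e => (measurable_pi_apply e.1).comp
        (measurable_noise0 measurable_const measurable_fst measurable_snd)
  ext s hs
  rw [Measure.map_apply hm hs, Measure.prod_apply (hm hs)]
  rw [lintegral_congr_ae (g := fun _ => PP G.edgeSet s), lintegral_const, measure_univ, mul_one]
  filter_upwards [ae_inj] with o ho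
  obtain ⟨κ, h1, h2⟩ := map_noise0 hG ho
  have h3 := Measure.map_infinitePi_infinitePi_of_inj (P := fun _ : V × ℕ => nu) h1
  unfold PP
  rw [← h3, Measure.map_apply (by fun_prop) hs]
  congr 1
  ext W
  simp only [Set.mem_preimage, h2]

theorem map_Phi [Countable V] {G : SimpleGraph V} (hG : ∀ v, (G.neighborSet v).Finite) :
    (iidUniform V).map (Phi G) = (PP (Sym2 V)).map (Xhat G) := by
  set ext : (G.edgeSet → ℝ) → Sym2 V → ℝ := fun x e => if h : e ∈ G.edgeSet then x ⟨e, h⟩ else 0
    with hext
  have hm1 : Measurable ext := by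
    refine measurable_pi_iff.2 fun e => ?_
    simp only [hext]
    split_ifs
    · exact measurable_pi_apply _
    · exact measurable_const
  have hX : Measurable fun x => Xhat G (ext x) := measurable_Xhat measurable_const hm1
  have hloc : ∀ g, Xhat G g = Xhat G (ext fun e => g e) := fun g =>
    Xhat_local G fun e he => by simp [hext, he]
  have hm : Measurable fun (p : (V × ℕ → ℝ) × (V × ℕ → ℝ)) (e : G.edgeSet) =>
      noise0 G p.1 p.2 e := measurable_pi_iff.2 fun e => (measurable_pi_apply e.1).comp
        (measurable_noise0 measurable_const measurable_fst measurable_snd)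
  have h3 := Measure.map_infinitePi_infinitePi_of_inj (P := fun _ : Sym2 V => nu)
    (f := (Subtype.val : G.edgeSet → Sym2 V)) Subtype.val_injective
  calc (iidUniform V).map (Phi G) = (PP G.edgeSet).map fun x => Xhat G (ext x) := by
        rw [← law_noise hG, ← map_pair, Measure.map_map hm measurable_pair,
          Measure.map_map hX (hm.comp measurable_pair)]
        congr 1
        funext U
        exact hloc _
    _ = _ := by
        unfold PP
        rw [← h3, Measure.map_map hX (by fun_prop)]
        congr 1
        funext g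
        exact (hloc g).symm

end Vale.Agent.P143
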