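import Vale.Agent.P143.Tree

namespace Vale.Agent.P143

open Finset Filter Topology
open scoped Classical

variable {V : Type*}

lemma dd_nonneg (p : V → ℝ) (f : Sym2 V) : 0 ≤ dd p p f := by
  induction f using Sym2.ind with
  | _ x y => rw [dd_mk]; exact mul_self_nonneg _

lemma En_nonneg (E : Finset (Sym2 V)) {w : Sym2 V → ℝ} (hw : ∀ f, 0 < w f) (p : V → ℝ) :
    0 ≤ En E w p p := sum_nonneg fun f _ => mul_nonneg (hw f).le (dd_nonneg p f)

lemma En_le {E : Finset (Sym2 V)} {w w' : Sym2 V → ℝ} {c : ℝ} (h : ∀ f ∈ E, w' f ≤ c * w f)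
    (p : V → ℝ) : En E w' p p ≤ c * En E w p p := by
  unfold En
  rw [mul_sum]
  refine sum_le_sum fun f hf => ?_
  rw [← mul_assoc]
  exact mul_le_mul_of_nonneg_right (h f hf) (dd_nonneg p f)

lemma En_split {E E' : Finset (Sym2 V)} (h : E ⊆ E') (w : Sym2 V → ℝ) (p : V → ℝ) :
    En E' w p p = En (E' \ E) w p p + En E w p p := by
  unfold En; rw [sum_sdiff h]

lemma dirichlet {E : Finset (Sym2 V)} {w : Sym2 V → ℝ} (hw : ∀ f, 0 < w f) {p : V → ℝ} {a b : V}
    (hp : ∀ q, En E w p q = q a - q b) (q : V → ℝ) (c : ℝ) :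
    2 * c * (q a - q b) - c ^ 2 * En E w q q ≤ p a - p b := by
  have h1 := En_nonneg E hw (fun z => p z - c * q z)
  have h2 : En E w (fun z => p z - c * q z) (fun z => p z - c * q z) =
      En E w p p - 2 * c * En E w p q + c ^ 2 * En E w q q := by
    unfold En
    rw [mul_sum, mul_sum, ← sum_sub_distrib, ← sum_add_distrib]
    refine sum_congr rfl fun f _ => ?_
    induction f using Sym2.ind with
    | _ x y => simp only [dd_mk]; ring
  rw [h2, hp, hp] at h1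
  linarith

def Fine (H : Finset V × Finset (Sym2 V)) : Prop := Sub H.1 H.2 ∧ (trees H.1 H.2).Nonempty

noncomputable def res (H : Finset V × Finset (Sym2 V)) (w : Sym2 V → ℝ) (e : Sym2 V) : ℝ :=
  marg H.1 H.2 w e / w e

lemma res_spec {H : Finset V × Finset (Sym2 V)} (hH : Fine H) {w : Sym2 V → ℝ}
    (hw : ∀ f, 0 < w f) {a b : V} (hab : s(a, b) ∈ H.2) :
    ∃ p : V → ℝ, res H w s(a, b) = p a - p b ∧ ∀ q, En H.2 w p q = q a - q b := by
  obtain ⟨p, h1, h2⟩ := kirchhoff hH.1 hH.2 hw hab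
  refine ⟨p, ?_, h2⟩
  rw [res, h1]
  field_simp [(hw s(a, b)).ne']

lemma marg_nonneg (W : Finset V) (E : Finset (Sym2 V)) {w : Sym2 V → ℝ} (hw : ∀ f, 0 < w f)
    (e : Sym2 V) : 0 ≤ marg W E w e :=
  div_nonneg (sum_nonneg fun _ _ => prod_nonneg fun f _ => (hw f).le)
    (sum_nonneg fun _ _ => prod_nonneg fun f _ => (hw f).le)

lemma marg_le_one (W : Finset V) (E : Finset (Sym2 V)) {w : Sym2 V → ℝ} (hw : ∀ f, 0 < w f)
    (e : Sym2 V) : marg W E w e ≤ 1 := by
  refine div_le_one_of_le₀ ?_ (sum_nonneg fun _ _ => prod_nonneg fun f _ => (hw f).le)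
  exact sum_le_sum_of_subset_of_nonneg (filter_subset _ _)
    fun _ _ _ => prod_nonneg fun f _ => (hw f).le

lemma marg_notMem (W : Finset V) {E : Finset (Sym2 V)} (w : Sym2 V → ℝ) {e : Sym2 V}
    (he : e ∉ E) : marg W E w e = 0 := by
  unfold marg
  rw [filter_false_of_mem, sum_empty, zero_div]
  intro T hT h
  simp only [trees, mem_filter, mem_powerset] at hT
  exact he (hT.1 h)

lemma res_upper {H H' : Finset V × Finset (Sym2 V)} (hH : Fine H) (hH' : Fine H')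
    (hsub : H.2 ⊆ H'.2) {w w' : Sym2 V → ℝ} (hw : ∀ f, 0 < w f) (hw' : ∀ f, 0 < w' f)
    {c : ℝ} (hc : 0 < c) (h : ∀ f ∈ H.2, w f ≤ c * w' f) {e : Sym2 V} (he : e ∈ H.2) :
    res H' w' e ≤ c * res H w e := by
  induction e using Sym2.ind with
  | _ a b =>
    obtain ⟨p, h1, h2⟩ := res_spec hH hw he
    obtain ⟨p', h1', h2'⟩ := res_spec hH' hw' (hsub he)
    have d1 := dirichlet hw h2 p' c⁻¹
    have d2 := En_le h p'
    have d3 := En_split hsub w' p'
    have d4 := En_nonneg (H'.2 \ H.2) hw' p'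
    rw [h2'] at d3
    rw [h1, h1']
    have d5 : En H.2 w p' p' ≤ c * (p' a - p' b) := by nlinarith
    have d6 : c⁻¹ ^ 2 * En H.2 w p' p' ≤ c⁻¹ * (p' a - p' b) := by
      calc c⁻¹ ^ 2 * En H.2 w p' p' ≤ c⁻¹ ^ 2 * (c * (p' a - p' b)) := by gcongr
        _ = c⁻¹ * (p' a - p' b) := by field_simp
    have d7 : c⁻¹ * (p' a - p' b) ≤ p a - p b := by linarith
    calc p' a - p' b = c * (c⁻¹ * (p' a - p' b)) := by field_simp
      _ ≤ c * (p a - p b) := by gcongr

lemma res_lower {H₀ H : Finset V × Finset (Sym2 V)} (hH₀ : Fine H₀) (hH : Fine H)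
    (hsub : H₀.2 ⊆ H.2) {w w' : Sym2 V → ℝ} (hw : ∀ f, 0 < w f) (hw' : ∀ f, 0 < w' f)
    {δ M : ℝ} (hδ : 0 ≤ δ) (hM : 0 ≤ M) (h₀ : ∀ f ∈ H₀.2, w' f ≤ (1 + δ) * w f)
    (h : ∀ f, w' f ≤ M * w f) {e : Sym2 V} (he : e ∈ H₀.2) :
    (1 - δ) * res H w e - M * (res H₀ w e - res H w e) ≤ res H w' e := by
  induction e using Sym2.ind with
  | _ a b =>
    obtain ⟨p₀, g1, g2⟩ := res_spec hH₀ hw he
    obtain ⟨p, h1, h2⟩ := res_spec hH hw (hsub he)
    obtain ⟨p', h1', h2'⟩ := res_spec hH hw' (hsub he)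
    have d1 := dirichlet hw' h2' p 1
    have d2 := dirichlet hw g2 p 1
    have d3 := En_split hsub w' p
    have d4 := En_split hsub w p
    have d5 := En_le h₀ p
    have d6 := En_le (E := H.2 \ H₀.2) (fun f _ => h f) p
    have d7 := En_nonneg (H.2 \ H₀.2) hw p
    rw [h2] at d4
    rw [g1, h1, h1']
    have d8 : En (H.2 \ H₀.2) w p p ≤ (p₀ a - p₀ b) - (p a - p b) := by linarith
    have d9 : M * En (H.2 \ H₀.2) w p p ≤ M * ((p₀ a - p₀ b) - (p a - p b)) := by gcongr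
    have d10 : (1 + δ) * En H₀.2 w p p ≤ (1 + δ) * (p a - p b) := by
      gcongr; linarith
    linarith

lemma marg_lip {H : Finset V × Finset (Sym2 V)} (hH : Fine H) {w w' : Sym2 V → ℝ}
    (hw : ∀ f, 0 < w f) (hw' : ∀ f, 0 < w' f) {c : ℝ} (hc : 0 < c)
    (h : ∀ f ∈ H.2, w f ≤ c * w' f) (h' : ∀ f ∈ H.2, w' f ≤ c * w f) (e : Sym2 V) :
    marg H.1 H.2 w' e ≤ c ^ 2 * marg H.1 H.2 w e := by
  by_cases he : e ∈ H.2
  · have h1 := res_upper hH hH subset_rfl hw hw' hc h he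
    unfold res at h1
    rw [div_le_iff₀ (hw' e)] at h1
    have h2 := marg_nonneg H.1 H.2 hw e
    have h3 := hw e
    calc marg H.1 H.2 w' e ≤ c * (marg H.1 H.2 w e / w e) * w' e := h1
      _ ≤ c * (marg H.1 H.2 w e / w e) * (c * w e) := by gcongr; exact h' e he
      _ = c ^ 2 * marg H.1 H.2 w e := by field_simp
  · rw [marg_notMem _ _ he, marg_notMem _ _ he]; simp

def Good (G : SimpleGraph V) (H : Finset V × Finset (Sym2 V)) : Prop :=
  (∀ f ∈ H.2, f ∈ G.edgeSet) ∧ Fine H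

noncomputable def term (G : SimpleGraph V) (w : Sym2 V → ℝ) (e : Sym2 V)
    (H : Finset V × Finset (Sym2 V)) : ℝ :=
  if Good G H ∧ e ∈ H.2 then marg H.1 H.2 w e else 1

noncomputable def mG (G : SimpleGraph V) (w : Sym2 V → ℝ) (e : Sym2 V) : ℝ :=
  if e ∈ G.edgeSet then ⨅ H, term G w e H else 0

lemma term_nonneg (G : SimpleGraph V) {w : Sym2 V → ℝ} (hw : ∀ f, 0 < w f) (e : Sym2 V)
    (H : Finset V × Finset (Sym2 V)) : 0 ≤ term G w e H := by
  unfold term; split_ifs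
  · exact marg_nonneg _ _ hw e
  · exact zero_le_one

lemma term_le_one (G : SimpleGraph V) {w : Sym2 V → ℝ} (hw : ∀ f, 0 < w f) (e : Sym2 V)
    (H : Finset V × Finset (Sym2 V)) : term G w e H ≤ 1 := by
  unfold term; split_ifs
  · exact marg_le_one _ _ hw e
  · exact le_rfl

lemma term_bdd (G : SimpleGraph V) {w : Sym2 V → ℝ} (hw : ∀ f, 0 < w f) (e : Sym2 V) :
    BddBelow (Set.range (term G w e)) :=
  ⟨0, by rintro _ ⟨H, rfl⟩; exact term_nonneg G hw e H⟩

lemma mG_nonneg (G : SimpleGraph V) {w : Sym2 V → ℝ} (hw : ∀ f, 0 < w f) (e : Sym2 V) :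
    0 ≤ mG G w e := by
  unfold mG; split_ifs
  · exact le_ciInf (term_nonneg G hw e)
  · exact le_rfl

lemma mG_le_one (G : SimpleGraph V) {w : Sym2 V → ℝ} (hw : ∀ f, 0 < w f) (e : Sym2 V) :
    mG G w e ≤ 1 := by
  unfold mG; split_ifs
  · exact (ciInf_le (term_bdd G hw e) (∅, ∅)).trans (term_le_one G hw e _)
  · exact zero_le_one

lemma mG_lip (G : SimpleGraph V) {w w' : Sym2 V → ℝ}
    (hw : ∀ f, 0 < w f) (hw' : ∀ f, 0 < w' f) {c : ℝ} (hc : 1 ≤ c)
    (h : ∀ f ∈ G.edgeSet, w f ≤ c * w' f) (h' : ∀ f ∈ G.edgeSet, w' f ≤ c * w f) (e : Sym2 V) :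
    mG G w' e ≤ c ^ 2 * mG G w e := by
  unfold mG; split_ifs
  · have hc2 : 0 < c ^ 2 := by positivity
    rw [mul_comm, ← div_le_iff₀ hc2]
    refine le_ciInf fun H => ?_
    rw [div_le_iff₀ hc2, mul_comm]
    refine (ciInf_le (term_bdd G hw' e) H).trans ?_
    unfold term; split_ifs with hH
    · exact marg_lip hH.1.2 hw hw' (by linarith) (fun f hf => h f (hH.1.1 f hf))
        (fun f hf => h' f (hH.1.1 f hf)) e
    · nlinarith
  · simp

theorem marg_tendsto (G : SimpleGraph V) (H : ℕ → Finset V × Finset (Sym2 V))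
    (hH : ∀ n, Good G (H n)) (hex : ∀ e ∈ G.edgeSet, ∀ᶠ n in atTop, e ∈ (H n).2)
    {w : Sym2 V → ℝ} {wn : ℕ → Sym2 V → ℝ} (hw : ∀ f, 0 < w f) (hwn : ∀ n f, 0 < wn n f)
    (hlim : ∀ f, Tendsto (fun n => wn n f) atTop (𝓝 (w f))) {M : ℝ} (hM0 : 0 ≤ M)
    (hM : ∀ n f, wn n f ≤ M * w f) (e : Sym2 V) :
    Tendsto (fun n => marg (H n).1 (H n).2 (wn n) e) atTop (𝓝 (mG G w e)) := by
  by_cases he : e ∈ G.edgeSet
  swap
  · have : ∀ n, marg (H n).1 (H n).2 (wn n) e = 0 := fun n =>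
      marg_notMem _ _ fun h => he ((hH n).1 e h)
    simp only [this, mG, if_neg he]
    exact tendsto_const_nhds
  set ρ := mG G w e / w e with hρ
  have hwe := hw e
  have hρ0 : 0 ≤ ρ := div_nonneg (mG_nonneg G hw e) hwe.le
  have hge : ∀ H', Good G H' → e ∈ H'.2 → ρ ≤ res H' w e := by
    intro H' h1 h2
    refine div_le_div_of_nonneg_right ?_ hwe.le
    rw [mG, if_pos he]
    refine (ciInf_le (term_bdd G hw e) H').trans ?_
    rw [term, if_pos ⟨h1, h2⟩]
  have happ : ∀ η > 0, ∃ H₀, Good G H₀ ∧ e ∈ H₀.2 ∧ res H₀ w e < ρ + η := by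
    intro η hη
    have h1 : ⨅ H, term G w e H < mG G w e + η * w e := by
      rw [mG, if_pos he]; linarith [mul_pos hη hwe]
    obtain ⟨H₀, h2⟩ := exists_lt_of_ciInf_lt h1
    have h3 : ∀ H', marg H'.1 H'.2 w e < mG G w e + η * w e → res H' w e < ρ + η := by
      intro H' h
      rw [res, div_lt_iff₀ hwe, hρ, add_mul, div_mul_cancel₀ _ hwe.ne']
      exact h
    unfold term at h2
    split_ifs at h2 with h4
    · exact ⟨H₀, h4.1, h4.2, h3 _ h2⟩
    · obtain ⟨n, hn⟩ := (hex e he).exists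
      exact ⟨H n, hH n, hn, h3 _ ((marg_le_one _ _ hw e).trans_lt h2)⟩
  have hev : ∀ H₀, Good G H₀ → ∀ c > 1, ∀ᶠ n in atTop, H₀.2 ⊆ (H n).2 ∧
      (∀ f ∈ H₀.2, wn n f ≤ c * w f) ∧ (∀ f ∈ H₀.2, w f ≤ c * wn n f) := by
    intro H₀ h0 c hc
    refine Eventually.and ?_ (Eventually.and ?_ ?_)
    · have := (eventually_all_finset H₀.2).2 fun f hf => hex f (h0.1 f hf)
      exact this.mono fun n hn f hf => hn f hf
    · refine (eventually_all_finset H₀.2).2 fun f _ => ?_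
      exact (hlim f).eventually (eventually_le_nhds (by nlinarith [hw f]))
    · refine (eventually_all_finset H₀.2).2 fun f _ => ?_
      exact ((hlim f).const_mul c).eventually (eventually_ge_nhds (by nlinarith [hw f]))
  have hres : Tendsto (fun n => res (H n) (wn n) e) atTop (𝓝 ρ) := by
    rw [tendsto_order]
    constructor
    · intro c hc
      set η := (ρ - c) / (ρ + 2 * M + 2) with hη
      have hpos : 0 < ρ + 2 * M + 2 := by linarith
      have hη0 : 0 < η := div_pos (by linarith) hpos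
      have hη1 : η * (ρ + 2 * M + 2) = ρ - c := div_mul_cancel₀ _ hpos.ne'
      obtain ⟨H₀, g1, g2, g3⟩ := happ (min η 1) (lt_min hη0 one_pos)
      filter_upwards [hev H₀ g1 (1 + min η 1) (by linarith [lt_min hη0 one_pos])] with n hn
      have k1 := res_lower g1.2 (hH n).2 hn.1 hw (hwn n) (lt_min hη0 one_pos).le hM0 hn.2.1
        (hM n) g2
      have k2 := hge (H n) (hH n) (hn.1 g2)
      have k3 := min_le_left η 1
      have k4 := min_le_right η 1
      have k5 : (1 - min η 1) * ρ ≤ (1 - min η 1) * res (H n) w e := by gcongr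
      have k6 : M * (res H₀ w e - res (H n) w e) ≤ M * η := by gcongr; linarith
      have k7 : min η 1 * ρ ≤ η * ρ := by gcongr
      nlinarith [mul_nonneg hM0 hη0.le]
    · intro c hc
      set η := (c - ρ) / (ρ + 2) with hη
      have hpos : 0 < ρ + 2 := by linarith
      have hη0 : 0 < η := div_pos (by linarith) hpos
      have hη1 : η * (ρ + 2) = c - ρ := div_mul_cancel₀ _ hpos.ne'
      have hm := lt_min hη0 one_pos
      obtain ⟨H₀, g1, g2, g3⟩ := happ (min η 1) hm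
      filter_upwards [hev H₀ g1 (1 + min η 1) (by linarith)] with n hn
      have k1 := res_upper g1.2 (hH n).2 hn.1 hw (hwn n) (by linarith) hn.2.2 g2
      have k3 := min_le_left η 1
      have k4 := min_le_right η 1
      have k5 : (1 + min η 1) * res H₀ w e < (1 + min η 1) * (ρ + min η 1) := by gcongr
      have k7 : min η 1 * ρ ≤ η * ρ := by gcongr
      have k8 : min η 1 * min η 1 ≤ η * 1 := by gcongr
      nlinarith
  have := hres.mul (hlim e)
  rw [hρ, div_mul_cancel₀ _ hwe.ne'] at this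
  refine this.congr fun n => ?_
  rw [res, div_mul_cancel₀ _ (hwn n e).ne']

end Vale.Agent.P143
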