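import Vale.Agent.P143.Flow
import Vale.Agent.P143.Resist

namespace Vale.Agent.P143

open Real MeasureTheory Filter Topology Finset
open scoped Classical

variable {V : Type*}

noncomputable def vG (G : SimpleGraph V) (t : ℝ) (y : Sym2 V → ℝ) (e : Sym2 V) : ℝ :=
  mG G (fun f => wt t (y f)) e

lemma vF_trees (W : Finset V) (E : Finset (Sym2 V)) (t : ℝ) (y : Sym2 V → ℝ) (e : Sym2 V) :
    vF (trees W E) t y e = marg W E (fun f => wt t (y f)) e := by
  unfold vF mg marg Zs
  congr

lemma lip_of_ratio {a b δ : ℝ} (ha : a ≤ 1) (hb : b ≤ 1) (hδ : 0 ≤ δ)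
    (h1 : a ≤ exp δ ^ 2 * b) (h2 : b ≤ exp δ ^ 2 * a) : |a - b| ≤ 2 * δ := by
  have key : ∀ a b : ℝ, a ≤ 1 → a ≤ exp δ ^ 2 * b → a - b ≤ 2 * δ := by
    intro a b ha h
    have e1 : exp (-(2 * δ)) * exp δ ^ 2 = 1 := by
      rw [← exp_nat_mul, ← exp_add]; simp
    have h3 : exp (-(2 * δ)) * a ≤ b := by
      calc exp (-(2 * δ)) * a ≤ exp (-(2 * δ)) * (exp δ ^ 2 * b) := by gcongr
        _ = b := by rw [← mul_assoc, e1, one_mul]
    have h4 := add_one_le_exp (-(2 * δ))
    have h5 : exp (-(2 * δ)) ≤ 1 := exp_le_one_iff.2 (by linarith)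
    nlinarith
  rw [abs_le]
  constructor <;> linarith [key a b ha h1, key b a hb h2]

lemma wt_ratio {t t' y y' s d : ℝ} (hs : |t - t'| ≤ s) (hd : |y - y'| ≤ d) :
    wt t y ≤ exp (s + 2 * d) * wt t' y' :=
  (wt_le t t' y y').trans (by gcongr; exact (wt_pos _ _).le)

lemma lipD_vG (G : SimpleGraph V) : LipD G.edgeSet (vG G) := by
  refine ⟨fun t y e => mG_nonneg G (fun _ => wt_pos _ _) e,
    fun t y e => mG_le_one G (fun _ => wt_pos _ _) e, fun t t' y y' s d hs hd h0 e => ?_⟩
  have hs0 : 0 ≤ s + 2 * d := by linarith [abs_nonneg (t - t')]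
  have a1 : ∀ f ∈ G.edgeSet, wt t (y f) ≤ exp (s + 2 * d) * wt t' (y' f) :=
    fun f hf => wt_ratio hs (hd f hf)
  have a2 : ∀ f ∈ G.edgeSet, wt t' (y' f) ≤ exp (s + 2 * d) * wt t (y f) :=
    fun f hf => wt_ratio (by rwa [abs_sub_comm]) (by rw [abs_sub_comm]; exact hd f hf)
  have := lip_of_ratio (mG_le_one G (w := fun f => wt t (y f)) (fun _ => wt_pos _ _) e)
    (mG_le_one G (w := fun f => wt t' (y' f)) (fun _ => wt_pos _ _) e) hs0
    (mG_lip G (fun _ => wt_pos _ _) (fun _ => wt_pos _ _) (one_le_exp hs0) a2 a1 e)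
    (mG_lip G (fun _ => wt_pos _ _) (fun _ => wt_pos _ _) (one_le_exp hs0) a1 a2 e)
  unfold vG; linarith

lemma lipD_vF {H : Finset V × Finset (Sym2 V)} (hH : Fine H) :
    LipD Set.univ (vF (trees H.1 H.2)) := by
  refine ⟨fun t y e => ?_, fun t y e => ?_, fun t t' y y' s d hs hd h0 e => ?_⟩
  · rw [vF_trees]; exact marg_nonneg _ _ (fun _ => wt_pos _ _) e
  · rw [vF_trees]; exact marg_le_one _ _ (fun _ => wt_pos _ _) e
  have hs0 : 0 ≤ s + 2 * d := by linarith [abs_nonneg (t - t')]
  have a1 : ∀ f ∈ H.2, wt t (y f) ≤ exp (s + 2 * d) * wt t' (y' f) :=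
    fun f _ => wt_ratio hs (hd f trivial)
  have a2 : ∀ f ∈ H.2, wt t' (y' f) ≤ exp (s + 2 * d) * wt t (y f) :=
    fun f _ => wt_ratio (by rwa [abs_sub_comm]) (by rw [abs_sub_comm]; exact hd f trivial)
  have := lip_of_ratio (marg_le_one H.1 H.2 (w := fun f => wt t (y f)) (fun _ => wt_pos _ _) e)
    (marg_le_one H.1 H.2 (w := fun f => wt t' (y' f)) (fun _ => wt_pos _ _) e) hs0
    (marg_lip hH (fun _ => wt_pos _ _) (fun _ => wt_pos _ _) (exp_pos _) a2 a1 e)
    (marg_lip hH (fun _ => wt_pos _ _) (fun _ => wt_pos _ _) (exp_pos _) a1 a2 e)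
  rw [vF_trees, vF_trees]; linarith

lemma measurable_mG [Countable V] {Ω : Type*} [MeasurableSpace Ω] {G : Ω → SimpleGraph V}
    (hG : Measurable G) {w : Ω → Sym2 V → ℝ} (hw : Measurable w) (e : Sym2 V) :
    Measurable fun ω => mG (G ω) (w ω) e := by
  have hE : ∀ f, Measurable fun ω => f ∈ (G ω).edgeSet := fun f =>
    (measurable_set_mem f).comp (SimpleGraph.measurable_edgeSet.comp hG)
  have hp : ∀ X : Finset (Sym2 V), Measurable fun ω => ∏ f ∈ X, w ω f := fun X =>
    Finset.measurable_prod _ fun f _ => (measurable_pi_apply f).comp hw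
  refine Measurable.ite (hE e).setOf (Measurable.iInf fun H => ?_) measurable_const
  refine Measurable.ite (Measurable.setOf ?_) ?_ measurable_const
  · exact Measurable.and (Measurable.and (Measurable.forall fun f =>
      Measurable.imp measurable_const (hE f)) measurable_const) measurable_const
  · exact (Finset.measurable_sum _ fun X _ => hp X).div (Finset.measurable_sum _ fun X _ => hp X)

lemma measurable_eul_vG [Countable V] {Ω : Type*} [MeasurableSpace Ω] {G : Ω → SimpleGraph V}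
    (hG : Measurable G) {g : Ω → Sym2 V → ℝ} (hg : Measurable g) (h : ℝ) (k : ℕ) :
    Measurable fun ω => eul (vG (G ω)) h (g ω) k := by
  induction k with
  | zero => exact hg
  | succ k ih =>
    refine measurable_pi_iff.2 fun e => ((measurable_pi_apply e).comp ih).add
      (Measurable.const_mul (measurable_mG hG (measurable_pi_iff.2 fun f => ?_) e) h)
    exact (continuous_wt _).measurable.comp ((measurable_pi_apply f).comp ih)

def Xhat (G : SimpleGraph V) (g : Sym2 V → ℝ) : Set (Sym2 V) :=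
  {e | ∀ᶠ T : ℕ in atTop, 0 < Zd (vG G) g T e - T / 2}

lemma measurable_Xhat [Countable V] {Ω : Type*} [MeasurableSpace Ω] {G : Ω → SimpleGraph V}
    (hG : Measurable G) {g : Ω → Sym2 V → ℝ} (hg : Measurable g) :
    Measurable fun ω => Xhat (G ω) (g ω) := by
  refine measurable_set_iff.2 fun e => ?_
  simp only [Xhat, Set.mem_ofPred_eq, eventually_atTop]
  refine Measurable.exists fun a => Measurable.forall fun b => Measurable.imp measurable_const ?_
  refine measurableSet_setOfPred.1 (measurableSet_lt measurable_const ?_)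
  exact ((measurable_pi_apply e).comp (measurable_eul_vG hG hg _ _)).sub_const _

lemma Xhat_subset (G : SimpleGraph V) (g : Sym2 V → ℝ) : Xhat G g ⊆ G.edgeSet := by
  intro e he
  by_contra hne
  have h1 : ∀ h k, eul (vG G) h g k e = g e := by
    intro h k
    induction k with
    | zero => rfl
    | succ k ih => simp [eul, ih, vG, mG, hne]
  simp only [Xhat, Set.mem_ofPred_eq, Zd, h1] at he
  obtain ⟨T, h2, h3⟩ := (he.and (tendsto_natCast_atTop_atTop.eventually_ge_atTop (2 * g e))).exists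
  linarith

lemma Xhat_local (G : SimpleGraph V) {g g' : Sym2 V → ℝ} (h : ∀ e ∈ G.edgeSet, g e = g' e) :
    Xhat G g = Xhat G g' := by
  ext e
  by_cases he : e ∈ G.edgeSet
  · simp only [Xhat, Set.mem_ofPred_eq, Zd, eul_local (lipD_vG G) _ h _ e he]
  · exact ⟨fun h => absurd (Xhat_subset G g h) he, fun h => absurd (Xhat_subset G g' h) he⟩

lemma T2.tendsto {ι : Type*} {S : Finset ι} {A B : ℝ} {f : (ι → ℝ) → ℝ} (hf : T2 S A B f)
    {yn : ℕ → ι → ℝ} {y : ι → ℝ} (h : ∀ e, Tendsto (fun n => yn n e) atTop (𝓝 (y e))) :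
    Tendsto (fun n => f (yn n)) atTop (𝓝 (f y)) := by
  rw [tendsto_iff_norm_sub_tendsto_zero]
  have h1 : Tendsto (fun n => A * ∑ e ∈ S, |yn n e - y e|) atTop (𝓝 (A * ∑ e ∈ S, |y e - y e|)) :=
    (tendsto_finsetSum _ fun e _ => ((h e).sub_const _).abs).const_mul A
  simp only [sub_self, abs_zero, sum_const_zero, mul_zero] at h1
  refine squeeze_zero (fun _ => norm_nonneg _) (fun n => ?_) h1
  exact hf.lip _ _ _ (fun e he => single_le_sum (f := fun e => |yn n e - y e|)
    (fun _ _ => abs_nonneg _) he) (sum_nonneg fun _ _ => abs_nonneg _)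

section main

variable [Countable V] {G : SimpleGraph V} {H : ℕ → Finset V × Finset (Sym2 V)}

omit [Countable V] in
lemma int_tendsto (hH : ∀ n, Good G (H n)) (hex : ∀ e ∈ G.edgeSet, ∀ᶠ n in atTop, e ∈ (H n).2)
    {S : Finset (Sym2 V)} {A : ℝ} {f : (Sym2 V → ℝ) → ℝ} (hf : T2 S A A f) (hK : ∀ y, |f y| ≤ A)
    (T : ℕ) :
    Tendsto (fun n => ∫ g, f (Zd (vF (trees (H n).1 (H n).2)) g T) ∂PP (Sym2 V)) atTop
      (𝓝 (∫ g, f (Zd (vG G) g T) ∂PP (Sym2 V))) := by
  refine tendsto_integral_of_dominated_convergence (fun _ => A)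
    (fun n => (hf.meas.comp (measurable_eul_vF _ _)).aestronglyMeasurable) (integrable_const _)
    (fun n => Eventually.of_forall fun g => hK _) (Eventually.of_forall fun g => ?_)
  refine hf.tendsto (eul_tendsto (vn := fun n => vF (trees (H n).1 (H n).2)) ?_ _ g _)
  intro t y yn hy e
  simp only [vF_trees]
  refine marg_tendsto G H hH hex (fun _ => wt_pos _ _) (fun _ _ => wt_pos _ _)
    (fun f => ((continuous_wt t).tendsto _).comp (hy f)) (M := exp |t| * exp |t|) (by positivity)
    (fun n f => ?_) e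
  calc wt t (yn n f) ≤ exp |t| * 1 := by rw [mul_one]; exact wt_le_exp _ _
    _ ≤ exp |t| * (exp |t| * wt t (y f)) := by gcongr; exact one_le_wt _ _
    _ = _ := by ring

omit [Countable V] in
lemma Zd_law' {H : Finset V × Finset (Sym2 V)} (hH : Fine H) {S : Finset (Sym2 V)} {A : ℝ}
    (hA : 0 ≤ A) {f : (Sym2 V → ℝ) → ℝ} (hf : T2 S A A f) (hK : ∀ y, |f y| ≤ A) (T : ℕ) :
    |avg (trees H.1 H.2) T f - ∫ g, f (Zd (vF (trees H.1 H.2)) g T) ∂PP (Sym2 V)| ≤
      A * (1 / 2) ^ T :=
  Zd_law (S := S ∪ H.2) hH.2 (fun X hX => (mem_powerset.1 (mem_filter.1 hX).1).trans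
    subset_union_right) (lipD_vF hH) hA (hf.mono_set subset_union_left) hK T

lemma avg_bound {ι : Type*} {𝒯 : Finset (Finset ι)} (hne : 𝒯.Nonempty) (t : ℝ)
    (f : (ι → ℝ) → ℝ) (p : Finset ι → ℝ) {δ : ℝ}
    (h : ∀ X ∈ 𝒯, |∫ g, f (fun e => g e + t * ind X e) ∂PP ι - p X| ≤ δ) :
    |avg 𝒯 t f - (∑ X ∈ 𝒯, p X) / 𝒯.card| ≤ δ := by
  have hcard : (0 : ℝ) < 𝒯.card := by exact_mod_cast card_pos.2 hne
  unfold avg
  rw [← sub_div, ← sum_sub_distrib, abs_div, abs_of_pos hcard, div_le_iff₀ hcard]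
  refine (abs_sum_le_sum_abs _ _).trans ((sum_le_sum h).trans ?_)
  rw [sum_const, nsmul_eq_mul, mul_comm]

lemma sig_close {ι : Type*} (X : Finset ι) (e : ι) (T x : ℝ) :
    |sigmoid (x + T * ind X e - T / 2) - ind X e| ≤ exp ((|x| - T / 2) / 2) := by
  unfold ind
  split_ifs
  · rw [abs_sub_comm, ← sigmoid_neg, abs_of_pos (sigmoid_pos _)]
    refine (sigmoid_le_exp _).trans ?_
    gcongr; linarith [neg_abs_le x]
  · rw [sub_zero, abs_of_pos (sigmoid_pos _)]
    refine (sigmoid_le_exp _).trans ?_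
    gcongr; linarith [le_abs_self x]

lemma int_sig_close {ι : Type*} (X : Finset ι) (e : ι) (T : ℝ) :
    ∫ g, |sigmoid (g e + T * ind X e - T / 2) - ind X e| ∂PP ι ≤ 8 * π * exp (-(T / 2 / 2)) := by
  rw [integral_eval e (k := fun x => |sigmoid (x + T * ind X e - T / 2) - ind X e|) (by fun_prop)]
  exact tail_bound _ (fun _ => abs_nonneg _) (sig_close X e T)

lemma ae_tendsto_zero {Ω : Type*} [MeasurableSpace Ω] {μ : Measure Ω} {f : ℕ → Ω → ℝ}
    (hm : ∀ n, Measurable (f n)) (h0 : ∀ n ω, 0 ≤ f n ω) (hi : ∀ n, Integrable (f n) μ)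
    (hs : Summable fun n => ∫ ω, f n ω ∂μ) :
    ∀ᵐ ω ∂μ, Tendsto (fun n => f n ω) atTop (𝓝 0) := by
  have h1 : ∫⁻ ω, ∑' n, ENNReal.ofReal (f n ω) ∂μ ≠ ⊤ := by
    rw [lintegral_tsum fun n => (hm n).ennreal_ofReal.aemeasurable]
    simp_rw [fun n => (ofReal_integral_eq_lintegral_ofReal (hi n)
      (Eventually.of_forall (h0 n))).symm]
    rw [← ENNReal.ofReal_tsum_of_nonneg (fun n => integral_nonneg (h0 n)) hs]
    exact ENNReal.ofReal_ne_top
  filter_upwards [ae_lt_top (Measurable.ennreal_tsum fun n => (hm n).ennreal_ofReal) h1]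
    with ω hω
  have h2 := (ENNReal.tendsto_toReal ENNReal.zero_ne_top).comp
    (ENNReal.tendsto_atTop_zero_of_tsum_ne_top hω.ne)
  simpa [Function.comp_def, ENNReal.toReal_ofReal (h0 _ _)] using h2

lemma sign_stab {u : ℕ → ℝ} (hu : ∀ T, |u (T + 1) - u T| ≤ 3)
    (h : Tendsto (fun T => phi (u T)) atTop (𝓝 0)) :
    Tendsto (fun T => sigmoid (u T)) atTop (𝓝 (if ∀ᶠ T in atTop, 0 < u T then 1 else 0)) := by
  have h2 : Tendsto (fun T => 2 * phi (u T)) atTop (𝓝 0) := by simpa using h.const_mul 2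
  have hbig : ∀ᶠ T in atTop, 3 < |u T| := by
    filter_upwards [h.eventually (eventually_lt_nhds
      (show 0 < exp (-3) * phi 0 from mul_pos (exp_pos _) (phi_pos _)))] with T hT
    by_contra hc
    have h1 := phi_le 0 (u T)
    rw [zero_sub, abs_neg] at h1
    have h3 : exp |u T| ≤ exp 3 := exp_le_exp.2 (not_lt.1 hc)
    have h4 : exp (-3) * exp 3 = 1 := by rw [← exp_add]; simp
    have h5 : phi 0 ≤ exp 3 * phi (u T) := h1.trans (by gcongr; exact (phi_pos _).le)
    have h6 : exp (-3) * phi 0 ≤ exp (-3) * (exp 3 * phi (u T)) := by gcongr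
    rw [← mul_assoc, h4] at h6
    linarith
  split_ifs with hc
  · have : Tendsto (fun T => 1 - sigmoid (u T)) atTop (𝓝 0) := by
      refine squeeze_zero' (Eventually.of_forall fun T => by linarith [sigmoid_le_one (u T)]) ?_ h2
      filter_upwards [hc] with T hT
      have h1 := sigmoid_le hT.le
      rw [sigmoid_zero] at h1
      unfold phi; nlinarith [sigmoid_le_one (u T)]
    simpa using this.const_sub 1
  · obtain ⟨T₀, hT₀⟩ := eventually_atTop.1 hbig
    have hneg : ∀ T ≥ T₀, u T ≤ 0 := by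
      intro T hT
      by_contra hpos
      apply hc
      refine eventually_atTop.2 ⟨T, fun T' hT' => ?_⟩
      induction T', hT' using Nat.le_induction with
      | base => exact not_le.1 hpos
      | succ k hk ih =>
        have a1 := hT₀ k (hT.trans hk)
        rw [abs_of_pos ih] at a1
        linarith [(abs_le.1 (hu k)).1]
    refine squeeze_zero' (Eventually.of_forall fun T => sigmoid_nonneg _) ?_ h2
    filter_upwards [eventually_ge_atTop T₀] with T hT
    have h1 := sigmoid_le (hneg T hT)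
    rw [sigmoid_zero] at h1
    unfold phi; nlinarith [sigmoid_nonneg (u T)]

lemma summable_tail : Summable fun T : ℕ => 8 * π * exp (-((T : ℝ) / 2 / 2)) := by
  refine Summable.mul_left _ ?_
  have : ∀ T : ℕ, exp (-((T : ℝ) / 2 / 2)) = exp (-(1 / 4)) ^ T := fun T => by
    rw [← exp_nat_mul]; congr 1; ring
  simp_rw [this]
  exact summable_geometric_of_lt_one (exp_pos _).le (exp_lt_one_iff.2 (by norm_num))

lemma ae_sig (hH : ∀ n, Good G (H n)) (hex : ∀ e ∈ G.edgeSet, ∀ᶠ n in atTop, e ∈ (H n).2)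
    (e : Sym2 V) : ∀ᵐ g ∂PP (Sym2 V), Tendsto (fun T : ℕ => sigmoid (Zd (vG G) g T e - T / 2))
      atTop (𝓝 (if e ∈ Xhat G g then 1 else 0)) := by
  have hs := Nice.sig (S := {e}) (mem_singleton_self e) (fun T : ℕ => (T : ℝ) / 2)
  obtain ⟨C, hC, hN⟩ := hs.mul hs.one_sub
  have hm : ∀ T : ℕ, Measurable fun g => phi (Zd (vG G) g T e - T / 2) := fun T =>
    (hN T).2.meas.comp (measurable_eul_vG measurable_const measurable_id _ _)
  have hb : ∀ T : ℕ, ∫ g, phi (Zd (vG G) g T e - T / 2) ∂PP (Sym2 V) ≤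
      8 * π * exp (-((T : ℝ) / 2 / 2)) + C * (1 / 2) ^ T := by
    intro T
    refine le_of_tendsto' (int_tendsto hH hex (hN T).2 (hN T).1 T) fun n => ?_
    have h1 := Zd_law' (hH n).2 hC (hN T).2 (hN T).1 T
    have h2 := avg_bound (hH n).2.2 T (fun y => sigmoid (y e - T / 2) * (1 - sigmoid (y e - T / 2)))
      (fun _ => 0) (δ := 8 * π * exp (-((T : ℝ) / 2 / 2))) (fun X _ => by
        rw [sub_zero]
        refine (abs_integral_le_integral_abs).trans (le_trans ?_ (int_sig_close X e T))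
        refine integral_mono_of_nonneg (Eventually.of_forall fun g => abs_nonneg _)
          (integrable_bdd (by fun_prop) (C := 2) fun g => ?_) (Eventually.of_forall fun g => ?_)
        · rw [abs_abs]
          refine (abs_sub _ _).trans ?_
          have : |ind X e| ≤ 1 := by unfold ind; split_ifs <;> simp
          rw [abs_of_pos (sigmoid_pos _)]
          linarith [sigmoid_le_one (g e + T * ind X e - T / 2)]
        · have a1 := sigmoid_pos (g e + T * ind X e - T / 2)
          have a2 := sigmoid_le_one (g e + T * ind X e - T / 2)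
          simp only
          set s := sigmoid (g e + T * ind X e - T / 2)
          rw [abs_of_nonneg (by nlinarith)]
          unfold ind
          split_ifs
          · rw [abs_sub_comm, abs_of_nonneg (by linarith)]; nlinarith
          · rw [sub_zero, abs_of_pos a1]; nlinarith)
    simp only [sum_const_zero, zero_div, sub_zero] at h2
    linarith [(abs_le.1 h1).1, (abs_le.1 h2).2]
  have := ae_tendsto_zero (μ := PP (Sym2 V)) hm (fun _ _ => (phi_pos _).le)
    (fun T => integrable_bdd (hm T) fun g => (hN T).1 _)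
    (Summable.of_nonneg_of_le (fun T => integral_nonneg fun _ => (phi_pos _).le) hb
      (summable_tail.add (summable_geometric_two.mul_left C)))
  filter_upwards [this] with g hg
  refine sign_stab (u := fun T : ℕ => Zd (vG G) g T e - T / 2) (fun T => ?_) hg
  have := Zd_step (lipD_vG G) g T e
  push_cast
  rw [abs_le] at this ⊢
  constructor <;> linarith [this.1, this.2]

lemma abs_prod_sub {α : Type*} (s : Finset α) (a b : α → ℝ) (ha : ∀ i, |a i| ≤ 1)
    (hb : ∀ i, |b i| ≤ 1) : |∏ i ∈ s, a i - ∏ i ∈ s, b i| ≤ ∑ i ∈ s, |a i - b i| := by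
  induction s using Finset.induction_on with
  | empty => simp
  | insert j s hj ih =>
    rw [prod_insert hj, prod_insert hj, sum_insert hj]
    have e1 : a j * ∏ i ∈ s, a i - b j * ∏ i ∈ s, b i =
        (a j - b j) * ∏ i ∈ s, a i + b j * (∏ i ∈ s, a i - ∏ i ∈ s, b i) := by ring
    have h1 : |∏ i ∈ s, a i| ≤ 1 := by
      rw [abs_prod]; exact prod_le_one (fun _ _ => abs_nonneg _) fun i _ => ha i
    rw [e1]
    refine (abs_add_le _ _).trans ?_
    rw [abs_mul, abs_mul]
    have b1 := mul_le_of_le_one_right (abs_nonneg (a j - b j)) h1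
    have b2 := mul_le_of_le_one_left (abs_nonneg (∏ i ∈ s, a i - ∏ i ∈ s, b i)) (hb j)
    linarith

noncomputable def flip' (A : Set (Sym2 V)) (e : Sym2 V) (x : ℝ) : ℝ := if e ∈ A then x else 1 - x

omit [Countable V] in
lemma prod_flip (F : Finset (Sym2 V)) (A X : Set (Sym2 V)) :
    ∏ e ∈ F, flip' A e (if e ∈ X then 1 else 0) =
      if ∀ e ∈ F, (e ∈ X ↔ e ∈ A) then 1 else 0 := by
  split_ifs with h
  · refine prod_eq_one fun e he => ?_
    unfold flip'
    by_cases c : e ∈ A <;> simp [c, h e he]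
  · simp only [not_forall] at h
    obtain ⟨e, he, h⟩ := h
    refine prod_eq_zero he ?_
    unfold flip'
    by_cases c : e ∈ A
    · have : e ∉ X := fun hx => h ⟨fun _ => c, fun _ => hx⟩
      simp [c, this]
    · have : e ∈ X := by
        by_contra hx; exact h ⟨fun a => absurd a hx, fun a => absurd a c⟩
      simp [c, this]

theorem law_Xhat (hH : ∀ n, Good G (H n)) (hex : ∀ e ∈ G.edgeSet, ∀ᶠ n in atTop, e ∈ (H n).2)
    (F : Finset (Sym2 V)) (A : Set (Sym2 V)) :
    Tendsto (fun n => (((trees (H n).1 (H n).2).filter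
        (fun X => ∀ e ∈ F, (e ∈ X ↔ e ∈ A))).card : ℝ) / (trees (H n).1 (H n).2).card) atTop
      (𝓝 ((PP (Sym2 V)).real {g | ∀ e ∈ F, (e ∈ Xhat G g ↔ e ∈ A)})) := by
  have hNice : Nice F fun (T : ℕ) y => ∏ e ∈ F, flip' A e (sigmoid (y e - T / 2)) := by
    refine Nice.prod F fun e he => ?_
    unfold flip'
    split_ifs
    · exact Nice.sig he _
    · exact (Nice.sig he _).one_sub
  obtain ⟨C, hC, hN⟩ := hNice
  have hfl : ∀ e x, 0 ≤ x → x ≤ 1 → |flip' A e x| ≤ 1 := by
    intro e x h0 h1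
    unfold flip'
    split_ifs <;> rw [abs_le] <;> constructor <;> linarith
  have hfl2 : ∀ e x y, |flip' A e x - flip' A e y| = |x - y| := by
    intro e x y
    unfold flip'
    split_ifs
    · rfl
    · rw [abs_sub_comm]; congr 1; ring
  have hms : MeasurableSet {g : Sym2 V → ℝ | ∀ e ∈ F, (e ∈ Xhat G g ↔ e ∈ A)} := by
    refine Measurable.setOf (Measurable.forall fun e => Measurable.imp measurable_const
      (Measurable.iff ?_ measurable_const))
    exact (measurable_set_mem e).comp (measurable_Xhat measurable_const measurable_id)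
  have h1 : Tendsto (fun T : ℕ => ∫ g, ∏ e ∈ F, flip' A e (sigmoid (Zd (vG G) g T e - T / 2))
      ∂PP (Sym2 V)) atTop (𝓝 ((PP (Sym2 V)).real {g | ∀ e ∈ F, (e ∈ Xhat G g ↔ e ∈ A)})) := by
    rw [← integral_indicator_one hms]
    refine tendsto_integral_of_dominated_convergence (fun _ => C)
      (fun T => ((hN T).2.meas.comp (measurable_eul_vG measurable_const measurable_id
        _ _)).aestronglyMeasurable) (integrable_const _)
      (fun T => Eventually.of_forall fun g => (hN T).1 _) ?_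
    filter_upwards [ae_all_iff.2 (ae_sig hH hex)] with g hg
    have e1 : Set.indicator {g : Sym2 V → ℝ | ∀ e ∈ F, (e ∈ Xhat G g ↔ e ∈ A)}
        (1 : (Sym2 V → ℝ) → ℝ) g = ∏ e ∈ F, flip' A e (if e ∈ Xhat G g then 1 else 0) := by
      rw [prod_flip, Set.indicator_apply]; rfl
    rw [e1]
    refine tendsto_finsetProd _ fun e _ => ?_
    unfold flip'
    by_cases c : e ∈ A
    · simp only [if_pos c]; exact hg e
    · simp only [if_neg c]; exact (hg e).const_sub 1
  have h2 : ∀ (T n : ℕ), |(((trees (H n).1 (H n).2).filter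
        (fun X => ∀ e ∈ F, (e ∈ X ↔ e ∈ A))).card : ℝ) / (trees (H n).1 (H n).2).card -
      ∫ g, ∏ e ∈ F, flip' A e (sigmoid (Zd (vF (trees (H n).1 (H n).2)) g T e - T / 2))
        ∂PP (Sym2 V)| ≤ F.card * (8 * π * exp (-((T : ℝ) / 2 / 2))) + C * (1 / 2) ^ T := by
    intro T n
    have a1 := Zd_law' (hH n).2 hC (hN T).2 (hN T).1 T
    have a2 := avg_bound (hH n).2.2 T (fun y => ∏ e ∈ F, flip' A e (sigmoid (y e - T / 2)))
      (fun X => if ∀ e ∈ F, (e ∈ X ↔ e ∈ A) then 1 else 0)
      (δ := F.card * (8 * π * exp (-((T : ℝ) / 2 / 2)))) (fun X _ => by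
        have i1 : Integrable (fun g : Sym2 V → ℝ => ∏ e ∈ F, flip' A e
            (sigmoid (g e + T * ind X e - T / 2))) (PP (Sym2 V)) :=
          integrable_bdd ((hN T).2.meas.comp (measurable_shift T X)) fun g => (hN T).1 _
        have i2 : ∀ e, Integrable (fun g : Sym2 V → ℝ =>
            |sigmoid (g e + T * ind X e - T / 2) - ind X e|) (PP (Sym2 V)) := fun e =>
          integrable_bdd (by fun_prop) (C := 2) fun g => by
            rw [abs_abs]
            refine (abs_sub _ _).trans ?_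
            have : |ind X e| ≤ 1 := by unfold ind; split_ifs <;> simp
            rw [abs_of_pos (sigmoid_pos _)]
            linarith [sigmoid_le_one (g e + T * ind X e - T / 2)]
        have e1 : (if ∀ e ∈ F, (e ∈ X ↔ e ∈ A) then (1 : ℝ) else 0) =
            ∫ _g, ∏ e ∈ F, flip' A e (ind X e) ∂PP (Sym2 V) := by
          rw [integral_const, probReal_univ, one_smul]
          have := prod_flip F A (X : Set (Sym2 V))
          simp only [mem_coe] at this
          convert this.symm using 3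
          unfold ind; congr
        rw [e1, ← integral_sub i1 (integrable_const _)]
        refine abs_integral_le_integral_abs.trans ?_
        calc _ ≤ ∫ g, ∑ e ∈ F, |sigmoid (g e + T * ind X e - T / 2) - ind X e| ∂PP (Sym2 V) := by
              refine integral_mono_of_nonneg (Eventually.of_forall fun g => abs_nonneg _)
                (integrable_finsetSum _ fun e _ => i2 e) (Eventually.of_forall fun g => ?_)
              refine (abs_prod_sub F _ _ (fun e => hfl e _ (sigmoid_nonneg _) (sigmoid_le_one _))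
                (fun e => hfl e _ ?_ ?_)).trans (le_of_eq ?_)
              · unfold ind; split_ifs <;> simp
              · unfold ind; split_ifs <;> simp
              · simp only [hfl2]
          _ ≤ ∑ _e ∈ F, 8 * π * exp (-((T : ℝ) / 2 / 2)) := by
              rw [integral_finsetSum _ fun e _ => i2 e]
              exact sum_le_sum fun e _ => int_sig_close X e T
          _ = _ := by rw [sum_const, nsmul_eq_mul])
    have e9 : ∑ X ∈ trees (H n).1 (H n).2, (if ∀ e ∈ F, (e ∈ X ↔ e ∈ A) then (1 : ℝ) else 0) =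
        (((trees (H n).1 (H n).2).filter (fun X => ∀ e ∈ F, (e ∈ X ↔ e ∈ A))).card : ℝ) := by
      rw [sum_boole]; congr
    rw [e9] at a2
    beta_reduce at a1
    rw [abs_le] at a1 a2 ⊢
    constructor <;> linarith [a1.1, a1.2, a2.1, a2.2]
  have h3 : Tendsto (fun T : ℕ => F.card * (8 * π * exp (-((T : ℝ) / 2 / 2))) + C * (1 / 2) ^ T)
      atTop (𝓝 0) := by
    have := (summable_tail.tendsto_atTop_zero.const_mul (F.card : ℝ)).add
      (summable_geometric_two.tendsto_atTop_zero.const_mul C)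
    simpa using this
  rw [Metric.tendsto_atTop]
  intro ε hε
  obtain ⟨T, b1, b2⟩ := ((h3.eventually (eventually_lt_nhds (show 0 < ε / 3 by linarith))).and
    (Metric.tendsto_nhds.1 h1 (ε / 3) (by linarith))).exists
  obtain ⟨N, hN'⟩ := Metric.tendsto_atTop.1 (int_tendsto hH hex (hN T).2 (hN T).1 T) (ε / 3)
    (by linarith)
  refine ⟨N, fun n hn => ?_⟩
  have c1 := hN' n hn
  have c2 := h2 T n
  beta_reduce at c1
  rw [Real.dist_eq, abs_lt] at c1 b2 ⊢
  rw [abs_le] at c2
  constructor <;> linarith [c1.1, c1.2, c2.1, c2.2, b2.1, b2.2]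

end main

end Vale.Agent.P143
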