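import Mathlib

namespace Vale.Agent.P143

open Real MeasureTheory Filter Topology ProbabilityTheory
open scoped Classical

noncomputable def phi (x : ℝ) : ℝ := sigmoid x * (1 - sigmoid x)

lemma phi_pos (x : ℝ) : 0 < phi x :=
  mul_pos (sigmoid_pos x) (by linarith [sigmoid_lt_one x])

lemma phi_eq (x : ℝ) : phi x = exp x / (1 + exp x) ^ 2 := by
  unfold phi
  rw [sigmoid_def, exp_neg]
  have := exp_pos x
  field_simp
  ring

lemma phi_le (a b : ℝ) : phi a ≤ exp |a - b| * phi b := by
  rw [phi_eq, phi_eq]
  have ha := exp_pos a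
  have hb := exp_pos b
  rw [← mul_div_assoc, div_le_div_iff₀ (by positivity) (by positivity)]
  rcases le_total b a with h | h
  · rw [abs_of_nonneg (by linarith), ← exp_add, sub_add_cancel]
    gcongr
  · rw [abs_of_nonpos (by linarith)]
    have h1 : 1 ≤ exp (-(a - b)) := one_le_exp (by linarith)
    have h2 : exp b = exp (-(a - b)) * exp a := by rw [← exp_add]; congr 1; ring
    have h3 : 1 + exp b ≤ exp (-(a - b)) * (1 + exp a) := by rw [mul_add, ← h2]; linarith
    calc exp a * (1 + exp b) ^ 2 ≤ exp a * (exp (-(a - b)) * (1 + exp a)) ^ 2 := by gcongr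
      _ = exp (-(a - b)) * (exp (-(a - b)) * exp a) * (1 + exp a) ^ 2 := by ring
      _ = _ := by rw [← h2]

lemma phi_le_exp (x : ℝ) : phi x ≤ exp (-|x|) := by
  rw [phi_eq]
  have hx := exp_pos x
  rw [div_le_iff₀ (by positivity)]
  rcases le_total 0 x with h | h
  · rw [abs_of_nonneg h, exp_neg]
    calc exp x = (exp x)⁻¹ * exp x ^ 2 := by field_simp
      _ ≤ (exp x)⁻¹ * (1 + exp x) ^ 2 := by gcongr; linarith
  · rw [abs_of_nonpos h, neg_neg]
    nlinarith [mul_pos hx hx, mul_pos hx (mul_pos hx hx)]

lemma continuous_phi : Continuous phi := by unfold phi; fun_prop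

lemma sigmoid_lip (a b : ℝ) : |sigmoid a - sigmoid b| ≤ |a - b| := by
  have := Convex.norm_image_sub_le_of_norm_hasDerivWithin_le (f := sigmoid) (f' := phi)
    (s := Set.univ) (C := 1) (x := b) (y := a)
    (fun x _ => (hasDerivAt_sigmoid x).hasDerivWithinAt)
    (fun x _ => by
      rw [Real.norm_eq_abs, abs_of_pos (phi_pos x)]
      exact (phi_le_exp x).trans (exp_le_one_iff.2 (by simp))) convex_univ trivial trivial
  simpa using this

lemma phi_lip (a b : ℝ) : |phi a - phi b| ≤ |a - b| := by
  have h1 : phi a - phi b = (sigmoid a - sigmoid b) * (1 - sigmoid a - sigmoid b) := by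
    unfold phi; ring
  rw [h1, abs_mul]
  have h2 : |1 - sigmoid a - sigmoid b| ≤ 1 := by
    rw [abs_le]
    constructor <;> linarith [sigmoid_pos a, sigmoid_pos b, sigmoid_lt_one a, sigmoid_lt_one b]
  calc _ ≤ |a - b| * 1 := mul_le_mul (sigmoid_lip a b) h2 (abs_nonneg _) (abs_nonneg _)
    _ = _ := mul_one _

lemma sigmoid_taylor (u a : ℝ) : |sigmoid (u + a) - sigmoid u - phi u * a| ≤ a ^ 2 := by
  have := Convex.norm_image_sub_le_of_norm_hasDerivWithin_le
    (f := fun x => sigmoid x - phi u * x) (f' := fun x => phi x - phi u)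
    (s := Set.uIcc u (u + a)) (C := |a|) (x := u) (y := u + a)
    (fun x _ => by
      have := ((hasDerivAt_sigmoid x).fun_sub ((hasDerivAt_id' x).const_mul (phi u)))
      rw [mul_one] at this
      exact this.hasDerivWithinAt)
    (fun x hx => by
      rw [Real.norm_eq_abs]
      refine (phi_lip x u).trans ?_
      simpa using Set.abs_sub_left_of_mem_uIcc hx) (convex_uIcc _ _) Set.left_mem_uIcc
    Set.right_mem_uIcc
  simp only [Real.norm_eq_abs, add_sub_cancel_left, abs_mul_abs_self] at this
  rw [sq]
  convert this using 2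
  ring

noncomputable def wt (t y : ℝ) : ℝ := phi (y - t) / phi y

lemma wt_pos (t y : ℝ) : 0 < wt t y := div_pos (phi_pos _) (phi_pos _)

lemma wt_le (t t' y y' : ℝ) : wt t y ≤ exp (|t - t'| + 2 * |y - y'|) * wt t' y' := by
  unfold wt
  have h1 := phi_le (y - t) (y' - t')
  have h2 := phi_le y' y
  have h3 : |y - t - (y' - t')| ≤ |t - t'| + |y - y'| := by
    have : y - t - (y' - t') = (y - y') - (t - t') := by ring
    rw [this]; linarith [abs_sub (y - y') (t - t')]
  rw [abs_sub_comm y' y] at h2
  rw [← mul_div_assoc, div_le_div_iff₀ (phi_pos _) (phi_pos _)]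
  have := phi_pos y
  have := phi_pos y'
  have := phi_pos (y' - t')
  calc phi (y - t) * phi y' ≤ (exp (|t - t'| + |y - y'|) * phi (y' - t')) * (exp |y - y'| * phi y) := by
        gcongr
        exact h1.trans (by gcongr)
    _ = _ := by
        rw [show |t - t'| + 2 * |y - y'| = (|t - t'| + |y - y'|) + |y - y'| by ring,
          exp_add (|t - t'| + |y - y'|)]
        ring

lemma wt_zero (y : ℝ) : wt 0 y = 1 := by simp [wt, (phi_pos y).ne']

lemma wt_le_exp (t y : ℝ) : wt t y ≤ exp |t| := by
  simpa [wt_zero] using wt_le t 0 y y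

lemma one_le_wt (t y : ℝ) : 1 ≤ exp |t| * wt t y := by
  simpa [wt_zero] using wt_le 0 t y y

lemma wt_eq (t y : ℝ) : wt t y = exp t * ((1 + (exp t - 1) * (1 - sigmoid y)) ^ 2)⁻¹ := by
  unfold wt
  rw [phi_eq, phi_eq, sigmoid_def, exp_sub, exp_neg]
  have := exp_pos t
  have := exp_pos y
  have e1 : 1 + (exp t - 1) * (1 - (1 + (exp y)⁻¹)⁻¹) = (exp y + exp t) / (1 + exp y) := by
    field_simp; ring
  rw [e1]
  field_simp
  ring

lemma continuous_wt (t : ℝ) : Continuous (wt t) :=
  (continuous_phi.comp (continuous_sub_right t)).div continuous_phi fun y => (phi_pos y).ne'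

lemma exp_half_le (x : ℝ) : exp (-(|x| / 2)) ≤ 8 * (1 + x ^ 2)⁻¹ := by
  have h := quadratic_le_exp_of_nonneg (x := |x| / 2) (by positivity)
  rw [exp_neg, ← div_eq_mul_inv, le_div_iff₀ (by positivity), inv_mul_le_iff₀ (exp_pos _)]
  have : (|x| / 2) ^ 2 = x ^ 2 / 4 := by rw [div_pow, sq_abs]; norm_num
  rw [this] at h
  nlinarith [abs_nonneg x]

lemma integrable_phi : Integrable phi := by
  refine (integrable_inv_one_add_sq.const_mul 8).mono' continuous_phi.aestronglyMeasurable
    (Eventually.of_forall fun x => ?_)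
  rw [Real.norm_eq_abs, abs_of_pos (phi_pos x)]
  refine (phi_le_exp x).trans (le_trans ?_ (exp_half_le x))
  gcongr; linarith [abs_nonneg x]

lemma integral_phi : ∫ x, phi x = 1 := by
  have := integral_of_hasDerivAt_of_tendsto (f := sigmoid) (f' := phi) hasDerivAt_sigmoid
    integrable_phi tendsto_sigmoid_atBot tendsto_sigmoid_atTop
  simpa using this

noncomputable def nu : Measure ℝ := volume.withDensity fun x => ENNReal.ofReal (phi x)

lemma measurable_ophi : Measurable fun x => ENNReal.ofReal (phi x) :=
  continuous_phi.measurable.ennreal_ofReal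

instance : IsProbabilityMeasure nu := by
  constructor
  rw [nu, withDensity_apply _ MeasurableSet.univ, Measure.restrict_univ,
    ← ofReal_integral_eq_lintegral_ofReal integrable_phi
      (Eventually.of_forall fun x => (phi_pos x).le), integral_phi, ENNReal.ofReal_one]

instance : NullSingletonClass nu := by unfold nu; infer_instance

lemma integral_nu (k : ℝ → ℝ) : ∫ x, k x ∂nu = ∫ x, phi x * k x := by
  rw [nu, integral_withDensity_eq_integral_toReal_smul measurable_ophi (by simp)]
  congr 1; ext x
  rw [ENNReal.toReal_ofReal (phi_pos x).le, smul_eq_mul]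

lemma nu_shift (t : ℝ) :
    nu.map (fun x => x + t) = nu.withDensity fun x => ENNReal.ofReal (wt t x) := by
  have hw : Measurable fun x => ENNReal.ofReal (wt t x) :=
    (continuous_wt t).measurable.ennreal_ofReal
  rw [nu, ← withDensity_mul _ measurable_ophi hw]
  ext s hs
  rw [Measure.map_apply (by fun_prop) hs, withDensity_apply _ (measurable_add_const t hs),
    withDensity_apply _ hs, ← lintegral_indicator (measurable_add_const t hs),
    ← lintegral_indicator hs, ← lintegral_add_right_eq_self (μ := volume) (s.indicator _) t]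
  congr 1; ext x
  by_cases hx : x + t ∈ s
  · rw [Set.indicator_of_mem hx, Set.indicator_of_mem (by exact hx), Pi.mul_apply,
      ← ENNReal.ofReal_mul (phi_pos _).le, wt, add_sub_cancel_right, mul_div_cancel₀ _ (phi_pos _).ne']
  · rw [Set.indicator_of_notMem hx, Set.indicator_of_notMem (by exact hx)]

lemma tail_bound (r : ℝ) {k : ℝ → ℝ} (hk0 : ∀ x, 0 ≤ k x)
    (hk : ∀ x, k x ≤ exp ((|x| - r) / 2)) : ∫ x, k x ∂nu ≤ 8 * π * exp (-(r / 2)) := by
  rw [integral_nu]
  calc ∫ x, phi x * k x ≤ ∫ x, exp (-(r / 2)) * (8 * (1 + x ^ 2)⁻¹) := by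
        refine integral_mono_of_nonneg (Eventually.of_forall fun x => mul_nonneg (phi_pos x).le
          (hk0 x)) ((integrable_inv_one_add_sq.const_mul 8).const_mul _)
          (Eventually.of_forall fun x => ?_)
        calc phi x * k x ≤ exp (-|x|) * exp ((|x| - r) / 2) := by
              gcongr
              · exact hk0 x
              · exact phi_le_exp x
              · exact hk x
          _ = exp (-(r / 2)) * exp (-(|x| / 2)) := by
              rw [← exp_add, ← exp_add]; congr 1; ring
          _ ≤ _ := mul_le_mul_of_nonneg_left (exp_half_le x) (exp_pos _).le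
    _ = 8 * π * exp (-(r / 2)) := by
        rw [integral_const_mul, integral_const_mul, integral_univ_inv_one_add_sq]; ring

lemma sigmoid_le_exp (u : ℝ) : sigmoid u ≤ exp (u / 2) := by
  rcases le_total 0 u with h | h
  · exact (sigmoid_le_one u).trans (one_le_exp (by linarith))
  · have h1 : sigmoid u ≤ exp u := by
      rw [sigmoid_def, exp_neg]
      have := exp_pos u
      rw [inv_le_comm₀ (by positivity) this]; linarith
    exact h1.trans (by gcongr; linarith)

variable {ι : Type*}

noncomputable def PP (ι : Type*) : Measure (ι → ℝ) := Measure.infinitePi fun _ => nu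

instance : IsProbabilityMeasure (PP ι) := by unfold PP; infer_instance

noncomputable def ind (X : Finset ι) (e : ι) : ℝ := if e ∈ X then 1 else 0

lemma PP_shift (t : ℝ) (X : Finset ι) :
    (PP ι).map (fun g e => g e + t * ind X e) =
      (PP ι).withDensity fun g => ∏ f ∈ X, ENNReal.ofReal (wt t (g f)) := by
  have hw : Measurable fun x => ENNReal.ofReal (wt t x) :=
    (continuous_wt t).measurable.ennreal_ofReal
  have _ (e : ι) : IsProbabilityMeasure (nu.map fun x => x + t * ind X e) :=
    Measure.isProbabilityMeasure_map (by fun_prop)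
  rw [PP, Measure.infinitePi_map_pi (fun _ => nu) (f := fun e x => x + t * ind X e) (by fun_prop)]
  symm
  refine Measure.eq_infinitePi _ fun s B hB => ?_
  have hm : MeasurableSet (Set.pi (s : Set ι) B) := MeasurableSet.pi s.countable_toSet fun i _ => hB i
  set F : ι → ℝ → ENNReal := fun e x => (if e ∈ s then (B e).indicator 1 x else 1) *
    (if e ∈ X then ENNReal.ofReal (wt t x) else 1) with hF
  have hFm : ∀ e, Measurable (F e) := by
    intro e
    refine Measurable.mul ?_ ?_
    · split_ifs
      · exact measurable_one.indicator (hB e)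
      · exact measurable_const
    · split_ifs
      · exact hw
      · exact measurable_const
  rw [withDensity_apply _ hm, ← lintegral_indicator hm]
  have e1 : ∀ g : ι → ℝ, (Set.pi (s : Set ι) B).indicator
      (fun g => ∏ f ∈ X, ENNReal.ofReal (wt t (g f))) g = ∏ e ∈ s ∪ X, F e (g e) := by
    intro g
    simp only [hF]
    rw [Finset.prod_mul_distrib, ← Finset.prod_filter, ← Finset.prod_filter,
      Finset.filter_mem_eq_inter, Finset.filter_mem_eq_inter, Finset.union_inter_cancel_left,
      Finset.union_inter_cancel_right]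
    by_cases hg : g ∈ Set.pi (s : Set ι) B
    · rw [Set.indicator_of_mem hg, Finset.prod_eq_one (s := s), one_mul]
      intro e he
      rw [Set.indicator_of_mem (hg e he)]; rfl
    · rw [Set.indicator_of_notMem hg]
      simp only [Set.mem_pi, Finset.mem_coe, not_forall] at hg
      obtain ⟨e, he, hg⟩ := hg
      rw [Finset.prod_eq_zero he (Set.indicator_of_notMem hg _), zero_mul]
  simp_rw [e1]
  have e2 := lintegral_prod_eq_prod_lintegral_of_indepFun (μ := Measure.infinitePi fun _ : ι => nu)
    (s ∪ X) (fun e g => F e (g e)) (iIndepFun_infinitePi hFm) (fun e => (hFm e).comp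
      (measurable_pi_apply e))
  rw [e2]
  have e3 : ∀ e, ∫⁻ g, F e (g e) ∂(Measure.infinitePi fun _ : ι => nu) =
      if e ∈ s then (nu.map fun x => x + t * ind X e) (B e) else 1 := by
    intro e
    rw [(measurePreserving_eval_infinitePi (fun _ : ι => nu) e).lintegral_comp (hFm e)]
    have key : ∀ A : Set ℝ, MeasurableSet A → ∫⁻ x, A.indicator 1 x *
        (if e ∈ X then ENNReal.ofReal (wt t x) else 1) ∂nu =
          (nu.map fun x => x + t * ind X e) A := by
      intro A hA
      by_cases he : e ∈ X
      · simp only [ind, if_pos he, mul_one]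
        rw [nu_shift, withDensity_apply _ hA, ← lintegral_indicator hA]
        congr 1; ext x
        by_cases hx : x ∈ A <;> simp [hx]
      · simp [ind, he, hA]
    by_cases hs : e ∈ s
    · simp only [hF, if_pos hs]; exact key _ (hB e)
    · have := key Set.univ MeasurableSet.univ
      simp only [hF, if_neg hs]
      simpa using this
  simp_rw [e3]
  rw [← Finset.prod_filter, Finset.filter_mem_eq_inter, Finset.union_inter_cancel_left]

lemma integral_shift (t : ℝ) (X : Finset ι) {k : (ι → ℝ) → ℝ} (hk : Measurable k) :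
    ∫ g, k (fun e => g e + t * ind X e) ∂PP ι = ∫ g, (∏ f ∈ X, wt t (g f)) * k g ∂PP ι := by
  have hw : Measurable fun x => ENNReal.ofReal (wt t x) :=
    (continuous_wt t).measurable.ennreal_ofReal
  have hm : Measurable fun (g : ι → ℝ) e => g e + t * ind X e := by fun_prop
  have hp : Measurable fun g : ι → ℝ => ∏ f ∈ X, ENNReal.ofReal (wt t (g f)) :=
    Finset.measurable_prod _ fun f _ => hw.comp (measurable_pi_apply f)
  rw [← integral_map (f := k) hm.aemeasurable
    hk.aestronglyMeasurable, PP_shift, integral_withDensity_eq_integral_toReal_smul hp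
      (Eventually.of_forall fun g => ENNReal.prod_lt_top fun _ _ => ENNReal.ofReal_lt_top)]
  congr 1; ext g
  rw [ENNReal.toReal_prod, smul_eq_mul]
  congr 1
  exact Finset.prod_congr rfl fun f _ => ENNReal.toReal_ofReal (wt_pos _ _).le

lemma integral_eval (e : ι) {k : ℝ → ℝ} (hk : Measurable k) :
    ∫ g, k (g e) ∂PP ι = ∫ x, k x ∂nu := by
  rw [← Measure.infinitePi_map_eval (fun _ : ι => nu) e,
    integral_map (measurable_pi_apply e).aemeasurable hk.aestronglyMeasurable]
  rfl

end Vale.Agent.P143
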