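import Vale.Agent.P143.Logi

namespace Vale.Agent.P143

open Real MeasureTheory Filter Topology Finset
open scoped Classical

variable {ι : Type*}

structure T2 (S : Finset ι) (A B : ℝ) (f : (ι → ℝ) → ℝ) : Prop where
  meas : Measurable f
  lip : ∀ y y' r, (∀ e ∈ S, |y' e - y e| ≤ r) → 0 ≤ r → |f y' - f y| ≤ A * r
  der : ∃ D : ι → (ι → ℝ) → ℝ, (∀ e, Measurable (D e)) ∧ (∀ y, ∑ e ∈ S, |D e y| ≤ A) ∧
    ∀ y y' r, (∀ e ∈ S, |y' e - y e| ≤ r) → 0 ≤ r →
      |f y' - f y - ∑ e ∈ S, D e y * (y' e - y e)| ≤ B * r ^ 2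

lemma T2.mono_set {S S' : Finset ι} {A B : ℝ} {f : (ι → ℝ) → ℝ} (h : T2 S A B f) (hS : S ⊆ S') :
    T2 S' A B f := by
  obtain ⟨D, h1, h2, h3⟩ := h.der
  refine ⟨h.meas, fun y y' r hr => h.lip y y' r fun e he => hr e (hS he),
    fun e y => if e ∈ S then D e y else 0, fun e => ?_, fun y => ?_, fun y y' r hr h0 => ?_⟩
  · by_cases he : e ∈ S
    · simpa [he] using h1 e
    · simp [he]
  · rw [← sum_subset hS (fun e _ he => by simp [he])]
    rw [sum_congr rfl (g := fun e => |D e y|) (fun e he => by simp [he])]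
    exact h2 y
  · rw [← sum_subset hS (fun e _ he => by simp [he])]
    rw [sum_congr rfl (g := fun e => D e y * (y' e - y e)) (fun e he => by simp [he])]
    exact h3 y y' r (fun e he => hr e (hS he)) h0

lemma T2.mono {S : Finset ι} {A B A' B' : ℝ} {f : (ι → ℝ) → ℝ} (h : T2 S A B f) (hA : A ≤ A')
    (hB : B ≤ B') : T2 S A' B' f := by
  obtain ⟨D, h1, h2, h3⟩ := h.der
  refine ⟨h.meas, fun y y' r hr h0 => (h.lip y y' r hr h0).trans (by gcongr), D, h1,
    fun y => (h2 y).trans hA, fun y y' r hr h0 => (h3 y y' r hr h0).trans (by gcongr)⟩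

def Nice {τ : Type*} (S : Finset ι) (F : τ → (ι → ℝ) → ℝ) : Prop :=
  ∃ C, 0 ≤ C ∧ ∀ t, (∀ y, |F t y| ≤ C) ∧ T2 S C C (F t)

variable {τ : Type*} {S : Finset ι}

lemma Nice.const (c : τ → ℝ) {C : ℝ} (hc : ∀ t, |c t| ≤ C) : Nice S fun t _ => c t := by
  refine ⟨|C|, abs_nonneg _, fun t => ⟨fun _ => (hc t).trans (le_abs_self _), measurable_const,
    fun y y' r _ h0 => by simpa using mul_nonneg (abs_nonneg C) h0,
    fun _ _ => 0, fun _ => measurable_const, fun _ => by simp, fun y y' r _ h0 => ?_⟩⟩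
  simp only [sub_self, zero_mul, sum_const_zero, abs_zero]
  positivity

lemma Nice.add {F G : τ → (ι → ℝ) → ℝ} (hF : Nice S F) (hG : Nice S G) :
    Nice S fun t y => F t y + G t y := by
  obtain ⟨C, hC, hF⟩ := hF
  obtain ⟨C', hC', hG⟩ := hG
  refine ⟨C + C', by positivity, fun t => ?_⟩
  obtain ⟨f0, f1⟩ := hF t
  obtain ⟨g0, g1⟩ := hG t
  obtain ⟨D, d1, d2, d3⟩ := f1.der
  obtain ⟨D', d1', d2', d3'⟩ := g1.der
  refine ⟨fun y => (abs_add_le _ _).trans (add_le_add (f0 y) (g0 y)), f1.meas.add g1.meas,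
    fun y y' r hr h0 => ?_, fun e y => D e y + D' e y, fun e => (d1 e).add (d1' e),
    fun y => ?_, fun y y' r hr h0 => ?_⟩
  · have a1 := f1.lip y y' r hr h0
    have a2 := g1.lip y y' r hr h0
    rw [abs_le] at a1 a2 ⊢
    constructor <;> linarith [a1.1, a1.2, a2.1, a2.2]
  · refine (sum_le_sum fun e _ => abs_add_le _ _).trans ?_
    rw [sum_add_distrib]; linarith [d2 y, d2' y]
  · have a1 := d3 y y' r hr h0
    have a2 := d3' y y' r hr h0
    simp only [add_mul, sum_add_distrib]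
    rw [abs_le] at a1 a2 ⊢
    constructor <;> linarith [a1.1, a1.2, a2.1, a2.2]

lemma Nice.mul {F G : τ → (ι → ℝ) → ℝ} (hF : Nice S F) (hG : Nice S G) :
    Nice S fun t y => F t y * G t y := by
  obtain ⟨C, hC, hF⟩ := hF
  obtain ⟨C', hC', hG⟩ := hG
  have hCC : 0 ≤ C * C' := by positivity
  refine ⟨3 * (C * C'), by positivity, fun t => ?_⟩
  obtain ⟨f0, f1⟩ := hF t
  obtain ⟨g0, g1⟩ := hG t
  obtain ⟨D, d1, d2, d3⟩ := f1.der
  obtain ⟨D', d1', d2', d3'⟩ := g1.der
  refine ⟨fun y => ?_, f1.meas.mul g1.meas,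
    fun y y' r hr h0 => ?_, fun e y => G t y * D e y + F t y * D' e y,
    fun e => (g1.meas.mul (d1 e)).add (f1.meas.mul (d1' e)),
    fun y => ?_, fun y y' r hr h0 => ?_⟩
  · rw [abs_mul]
    have := mul_le_mul (f0 y) (g0 y) (abs_nonneg _) hC
    linarith
  · have a1 := f1.lip y y' r hr h0
    have a2 := g1.lip y y' r hr h0
    have e1 : F t y' * G t y' - F t y * G t y =
        (F t y' - F t y) * G t y' + F t y * (G t y' - G t y) := by ring
    rw [e1]
    refine (abs_add_le _ _).trans ?_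
    rw [abs_mul, abs_mul]
    have b1 := mul_le_mul a1 (g0 y') (abs_nonneg _) (by positivity)
    have b2 := mul_le_mul (f0 y) a2 (abs_nonneg _) hC
    nlinarith [mul_nonneg hCC h0]
  · calc ∑ e ∈ S, |G t y * D e y + F t y * D' e y| ≤ ∑ e ∈ S, (C' * |D e y| + C * |D' e y|) := by
          refine sum_le_sum fun e _ => (abs_add_le _ _).trans ?_
          rw [abs_mul, abs_mul]
          gcongr
          · exact g0 y
          · exact f0 y
      _ = C' * ∑ e ∈ S, |D e y| + C * ∑ e ∈ S, |D' e y| := by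
          rw [sum_add_distrib, mul_sum, mul_sum]
      _ ≤ C' * C + C * C' := by gcongr; exacts [d2 y, d2' y]
      _ ≤ _ := by linarith
  · have a1 := d3 y y' r hr h0
    have a2 := d3' y y' r hr h0
    have a3 := f1.lip y y' r hr h0
    have a4 := g1.lip y y' r hr h0
    have e1 : F t y' * G t y' - F t y * G t y -
        ∑ e ∈ S, (G t y * D e y + F t y * D' e y) * (y' e - y e) =
        (F t y' - F t y - ∑ e ∈ S, D e y * (y' e - y e)) * G t y +
          F t y * (G t y' - G t y - ∑ e ∈ S, D' e y * (y' e - y e)) +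
          (F t y' - F t y) * (G t y' - G t y) := by
      simp only [add_mul, sum_add_distrib, mul_assoc, ← mul_sum]; ring
    rw [e1]
    refine (abs_add_three _ _ _).trans ?_
    rw [abs_mul, abs_mul, abs_mul]
    have b1 := mul_le_mul a1 (g0 y) (abs_nonneg _) (by positivity)
    have b2 := mul_le_mul (f0 y) a2 (abs_nonneg _) hC
    have b3 := mul_le_mul a3 a4 (abs_nonneg _) (by positivity)
    nlinarith

lemma Nice.inv {F : τ → (ι → ℝ) → ℝ} (hF : Nice S F) {c : ℝ} (hc : 0 < c)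
    (h : ∀ t y, c ≤ F t y) : Nice S fun t y => (F t y)⁻¹ := by
  obtain ⟨C, hC, hF⟩ := hF
  set k := c⁻¹ with hk
  have hk0 : 0 < k := inv_pos.2 hc
  have p1 : 0 ≤ k ^ 2 * C := by positivity
  have p2 : 0 ≤ k ^ 3 * C ^ 2 := by positivity
  refine ⟨k + k ^ 2 * C + k ^ 3 * C ^ 2, by positivity, fun t => ?_⟩
  obtain ⟨f0, f1⟩ := hF t
  obtain ⟨D, d1, d2, d3⟩ := f1.der
  have hpos : ∀ y, 0 < F t y := fun y => hc.trans_le (h t y)
  have hinv : ∀ y, |(F t y)⁻¹| ≤ k := fun y => by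
    rw [abs_of_pos (inv_pos.2 (hpos y))]; exact inv_anti₀ hc (h t y)
  refine ⟨fun y => by linarith [hinv y], f1.meas.inv,
    fun y y' r hr h0 => ?_, fun e y => -((F t y)⁻¹ ^ 2 * D e y),
    fun e => ((f1.meas.inv.pow_const 2).mul (d1 e)).neg,
    fun y => ?_, fun y y' r hr h0 => ?_⟩
  · have a1 := f1.lip y y' r hr h0
    have e1 : (F t y')⁻¹ - (F t y)⁻¹ = -((F t y')⁻¹ * (F t y)⁻¹ * (F t y' - F t y)) := by
      field_simp [(hpos y).ne', (hpos y').ne']; ring
    rw [e1, abs_neg, abs_mul, abs_mul]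
    calc |(F t y')⁻¹| * |(F t y)⁻¹| * |F t y' - F t y| ≤ k * k * (C * r) := by
          gcongr; exacts [hinv y', hinv y]
      _ = k ^ 2 * C * r := by ring
      _ ≤ _ := by gcongr; linarith
  · calc ∑ e ∈ S, |-((F t y)⁻¹ ^ 2 * D e y)| ≤ ∑ e ∈ S, k ^ 2 * |D e y| := by
          refine sum_le_sum fun e _ => ?_
          rw [abs_neg, abs_mul, abs_pow]
          gcongr; exact hinv y
      _ = k ^ 2 * ∑ e ∈ S, |D e y| := by rw [mul_sum]
      _ ≤ k ^ 2 * C := by gcongr; exact d2 y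
      _ ≤ _ := by linarith
  · have a1 := d3 y y' r hr h0
    have a3 := f1.lip y y' r hr h0
    have e1 : (F t y')⁻¹ - (F t y)⁻¹ - ∑ e ∈ S, -((F t y)⁻¹ ^ 2 * D e y) * (y' e - y e) =
        (F t y)⁻¹ ^ 2 * (F t y')⁻¹ * (F t y' - F t y) ^ 2 -
          (F t y)⁻¹ ^ 2 * (F t y' - F t y - ∑ e ∈ S, D e y * (y' e - y e)) := by
      simp only [neg_mul, sum_neg_distrib, mul_assoc, ← mul_sum]
      field_simp [(hpos y).ne', (hpos y').ne']; ring
    rw [e1]
    refine (abs_sub _ _).trans ?_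
    rw [abs_mul, abs_mul, abs_mul, abs_pow, abs_pow]
    calc |(F t y)⁻¹| ^ 2 * |(F t y')⁻¹| * |F t y' - F t y| ^ 2 +
          |(F t y)⁻¹| ^ 2 * |F t y' - F t y - ∑ e ∈ S, D e y * (y' e - y e)|
        ≤ k ^ 2 * k * (C * r) ^ 2 + k ^ 2 * (C * r ^ 2) := by
          gcongr; exacts [hinv y, hinv y', hinv y]
      _ = (k ^ 2 * C + k ^ 3 * C ^ 2) * r ^ 2 := by ring
      _ ≤ _ := by gcongr; linarith

lemma Nice.sum {α : Type*} (s : Finset α) {F : α → τ → (ι → ℝ) → ℝ} (h : ∀ i ∈ s, Nice S (F i)) :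
    Nice S fun t y => ∑ i ∈ s, F i t y := by
  induction s using Finset.induction_on with
  | empty => simpa using Nice.const (S := S) (fun _ : τ => (0 : ℝ)) (C := 0) (by simp)
  | insert a s ha ih =>
    simp only [sum_insert ha]
    exact (h a (mem_insert_self _ _)).add (ih fun i hi => h i (mem_insert_of_mem hi))

lemma Nice.prod {α : Type*} (s : Finset α) {F : α → τ → (ι → ℝ) → ℝ} (h : ∀ i ∈ s, Nice S (F i)) :
    Nice S fun t y => ∏ i ∈ s, F i t y := by
  induction s using Finset.induction_on with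
  | empty => simpa using Nice.const (S := S) (fun _ : τ => (1 : ℝ)) (C := 1) (by simp)
  | insert a s ha ih =>
    simp only [prod_insert ha]
    exact (h a (mem_insert_self _ _)).mul (ih fun i hi => h i (mem_insert_of_mem hi))

lemma Nice.sig {e : ι} (he : e ∈ S) (r : τ → ℝ) : Nice S fun t y => sigmoid (y e - r t) := by
  refine ⟨1, zero_le_one, fun t => ⟨fun y => ?_, by fun_prop, fun y y' s hs _ => ?_,
    fun f y => if f = e then phi (y e - r t) else 0, fun f => ?_, fun y => ?_,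
    fun y y' s hs h0 => ?_⟩⟩
  · rw [abs_of_pos (sigmoid_pos _)]; exact sigmoid_le_one _
  · refine (sigmoid_lip _ _).trans ?_
    simpa using hs e he
  · beta_reduce
    split_ifs
    · exact continuous_phi.measurable.comp (by fun_prop)
    · exact measurable_const
  · rw [sum_eq_single_of_mem e he (fun f _ hf => by simp [hf])]
    beta_reduce
    rw [if_pos rfl, abs_of_pos (phi_pos _)]
    exact (phi_le_exp _).trans (exp_le_one_iff.2 (by simp))
  · rw [sum_eq_single_of_mem e he (fun f _ hf => by simp [hf])]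
    beta_reduce
    rw [if_pos rfl]
    have := sigmoid_taylor (y e - r t) (y' e - y e)
    rw [show y e - r t + (y' e - y e) = y' e - r t by ring] at this
    refine this.trans ?_
    rw [one_mul, ← sq_abs]
    gcongr; exact hs e he

lemma Nice.one_sub {F : τ → (ι → ℝ) → ℝ} (hF : Nice S F) : Nice S fun t y => 1 - F t y := by
  have := (Nice.const (S := S) (fun _ : τ => (1 : ℝ)) (C := 1) (by simp)).add
    ((Nice.const (S := S) (fun _ : τ => (-1 : ℝ)) (C := 1) (by simp)).mul hF)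
  simpa [sub_eq_add_neg] using this

lemma Nice.wt {e : ι} (he : e ∈ S) (r : τ → ℝ) {T : ℝ} (h0 : ∀ t, 0 ≤ r t) (h1 : ∀ t, r t ≤ T) :
    Nice S fun t y => wt (r t) (y e) := by
  simp only [wt_eq]
  have c1 : ∀ t, |exp (r t)| ≤ exp T := fun t => by
    rw [abs_of_pos (exp_pos _)]; exact exp_le_exp.2 (h1 t)
  have c2 : ∀ t, |exp (r t) - 1| ≤ exp T := fun t => by
    rw [abs_of_nonneg (by linarith [one_le_exp (h0 t)])]; linarith [exp_le_exp.2 (h1 t)]
  have n1 : Nice S fun t y => 1 + (exp (r t) - 1) * (1 - sigmoid (y e)) := by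
    have := (Nice.const (S := S) (fun _ : τ => (1 : ℝ)) (C := 1) (by simp)).add
      ((Nice.const (S := S) _ c2).mul (Nice.sig he (fun _ : τ => (0 : ℝ))).one_sub)
    simpa using this
  refine (Nice.const _ c1).mul (Nice.inv (c := 1) ?_ one_pos fun t y => ?_)
  · simpa [sq] using n1.mul n1
  · refine one_le_pow₀ ?_
    have := mul_nonneg (sub_nonneg.2 (one_le_exp (h0 t))) (sub_nonneg.2 (sigmoid_le_one (y e)))
    linarith

end Vale.Agent.P143
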