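import Mathlib

namespace Vale.Agent.P143

open Finset
open scoped Classical

variable {V : Type*}

abbrev Reach (T : Finset (Sym2 V)) (x y : V) : Prop :=
  (SimpleGraph.fromEdgeSet (T : Set (Sym2 V))).Reachable x y

def IsTr (W : Finset V) (T : Finset (Sym2 V)) : Prop :=
  (∀ x ∈ W, ∀ y ∈ W, Reach T x y) ∧ T.card + 1 = W.card

def Sub (W : Finset V) (E : Finset (Sym2 V)) : Prop :=
  ∀ x y, s(x, y) ∈ E → x ≠ y ∧ x ∈ W ∧ y ∈ W

noncomputable def trees (W : Finset V) (E : Finset (Sym2 V)) : Finset (Finset (Sym2 V)) :=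
  E.powerset.filter (IsTr W)

lemma reach_ind {T : Finset (Sym2 V)} (P : V → Prop)
    (h : ∀ u v, s(u, v) ∈ T → P u → P v) {a b : V} (hab : Reach T a b) (ha : P a) : P b := by
  obtain ⟨p⟩ := hab
  induction p with
  | nil => exact ha
  | cons hadj _ ih =>
    rw [SimpleGraph.fromEdgeSet_adj] at hadj
    exact ih (h _ _ (by simpa using hadj.1) ha)

lemma reach_edge {T : Finset (Sym2 V)} {u v : V} (h : s(u, v) ∈ T) : Reach T u v := by
  by_cases huv : u = v
  · subst huv; exact SimpleGraph.Reachable.refl _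
  · exact SimpleGraph.Adj.reachable (by rw [SimpleGraph.fromEdgeSet_adj]; exact ⟨by simpa, huv⟩)

lemma reach_mono {T T' : Finset (Sym2 V)} (h : T ⊆ T') {a b : V} (hab : Reach T a b) :
    Reach T' a b :=
  reach_ind (fun z => Reach T' a z) (fun _ _ huv hu => hu.trans (reach_edge (h huv))) hab
    (SimpleGraph.Reachable.refl _)

lemma reach_const {T : Finset (Sym2 V)} (f : V → ℝ) (h : ∀ u v, s(u, v) ∈ T → f u = f v)
    {a b : V} (hab : Reach T a b) : f a = f b :=
  reach_ind (fun z => f a = f z) (fun u v huv hu => hu.trans (h u v huv)) hab rfl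

lemma card_le_of_conn {W : Finset V} {T : Finset (Sym2 V)}
    (h : ∀ x ∈ W, ∀ y ∈ W, Reach T x y) : W.card ≤ T.card + 1 := by
  rcases W.eq_empty_or_nonempty with rfl | ⟨r, hr⟩
  · simp
  set G := SimpleGraph.fromEdgeSet (T : Set (Sym2 V)) with hG
  have key : ∀ v ∈ W.erase r, ∃ u, s(v, u) ∈ T ∧ G.dist u r + 1 = G.dist v r := by
    intro v hv
    rw [mem_erase] at hv
    obtain ⟨p, hp⟩ := (h v hv.2 r hr).exists_walk_length_eq_dist
    cases p with
    | nil => exact absurd rfl hv.1
    | cons hadj q =>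
      rename_i u
      refine ⟨u, ?_, ?_⟩
      · rw [SimpleGraph.fromEdgeSet_adj] at hadj; simpa using hadj.1
      · have h1 : G.dist u r ≤ q.length := SimpleGraph.dist_le q
        have h2 : G.dist v r ≤ G.dist u r + 1 := by
          obtain ⟨q', hq'⟩ := q.reachable.exists_walk_length_eq_dist
          have := SimpleGraph.dist_le (SimpleGraph.Walk.cons hadj q')
          simp only [SimpleGraph.Walk.length_cons] at this
          rw [hq'] at this; exact this
        simp only [SimpleGraph.Walk.length_cons] at hp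
        have hp' : q.length + 1 = G.dist v r := hp
        omega
  choose! u hu using key
  have hinj : (W.erase r).card ≤ T.card := by
    refine card_le_card_of_injOn (fun v => s(v, u v)) (fun v hv => (hu v hv).1) ?_
    intro v hv v' hv' hvv
    have hvv' : s(v, u v) = s(v', u v') := hvv
    rw [Sym2.eq_iff] at hvv'
    rcases hvv' with ⟨h1, _⟩ | ⟨h1, h2⟩
    · exact h1
    · have a1 := (hu v hv).2
      have a2 := (hu v' hv').2
      rw [h2] at a1; rw [← h1] at a2
      omega
  rw [card_erase_of_mem hr] at hinj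
  omega

lemma reach_erase {T : Finset (Sym2 V)} {x y z : V} (h : Reach T x z) :
    Reach (T.erase s(x, y)) x z ∨ Reach (T.erase s(x, y)) y z := by
  refine reach_ind (fun z => Reach (T.erase s(x, y)) x z ∨ Reach (T.erase s(x, y)) y z) ?_ h
    (Or.inl (SimpleGraph.Reachable.refl _))
  intro u v huv hu
  by_cases he : s(u, v) = s(x, y)
  · rw [Sym2.eq_iff] at he
    rcases he with ⟨_, rfl⟩ | ⟨_, rfl⟩
    · exact Or.inr (SimpleGraph.Reachable.refl _)
    · exact Or.inl (SimpleGraph.Reachable.refl _)
  · have : Reach (T.erase s(x, y)) u v := reach_edge (mem_erase.2 ⟨he, huv⟩)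
    rcases hu with hu | hu
    · exact Or.inl (hu.trans this)
    · exact Or.inr (hu.trans this)

lemma not_reach_erase {W : Finset V} {T : Finset (Sym2 V)} (hT : IsTr W T) {x y : V}
    (hxy : s(x, y) ∈ T) (hx : x ∈ W) : ¬ Reach (T.erase s(x, y)) x y := by
  intro h
  have hall : ∀ z ∈ W, Reach (T.erase s(x, y)) x z := by
    intro z hz
    rcases reach_erase (y := y) (hT.1 x hx z hz) with h1 | h1
    · exact h1
    · exact h.trans h1
  have := card_le_of_conn (W := W) (T := T.erase s(x, y))
    (fun a ha b hb => (hall a ha).symm.trans (hall b hb))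
  rw [card_erase_of_mem hxy] at this
  have h2 := hT.2
  have h3 : 0 < T.card := card_pos.2 ⟨_, hxy⟩
  omega

noncomputable def chi (F : Finset (Sym2 V)) (a z : V) : ℝ := if Reach F a z then 1 else 0

def dd (p q : V → ℝ) : Sym2 V → ℝ :=
  Sym2.lift ⟨fun x y => (p x - p y) * (q x - q y), fun _ _ => by ring⟩

@[simp] lemma dd_mk (p q : V → ℝ) (x y : V) : dd p q s(x, y) = (p x - p y) * (q x - q y) := rfl

lemma chi_edge {F : Finset (Sym2 V)} {a x y : V} (h : s(x, y) ∈ F) : chi F a x = chi F a y := by
  unfold chi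
  have : Reach F a x ↔ Reach F a y :=
    ⟨fun h1 => h1.trans (reach_edge h), fun h1 => h1.trans (reach_edge h).symm⟩
  simp [this]

lemma chi_sq_tree {W : Finset V} {T : Finset (Sym2 V)} (hT : IsTr W T) {a x y : V}
    (hxy : s(x, y) ∈ T) (hx : x ∈ W) (ha : a ∈ W) :
    (chi (T.erase s(x, y)) a x - chi (T.erase s(x, y)) a y) ^ 2 = 1 := by
  have h1 := not_reach_erase hT hxy hx
  have h2 := reach_erase (y := y) (hT.1 x hx a ha)
  unfold chi
  by_cases c1 : Reach (T.erase s(x, y)) a x
  · have c2 : ¬ Reach (T.erase s(x, y)) a y := fun c2 => h1 (c1.symm.trans c2)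
    simp [c1, c2]
  · have c2 : Reach (T.erase s(x, y)) a y := by
      rcases h2 with h2 | h2
      · exact absurd h2.symm c1
      · exact h2.symm
    simp [c1, c2]

lemma tree_flow {W : Finset V} {T : Finset (Sym2 V)} (hT : IsTr W T) (hS : Sub W T) {a b : V}
    (ha : a ∈ W) (hb : b ∈ W) (q : V → ℝ) :
    q a - q b = ∑ f ∈ T.filter (fun f => ¬ Reach (T.erase f) a b),
      dd (chi (T.erase f) a) q f := by
  set Ψ : V → ℝ := fun z => ∑ f ∈ T, chi (T.erase f) a z * dd (chi (T.erase f) a) q f with hΨ
  have key : ∀ x y, s(x, y) ∈ T → q x - Ψ x = q y - Ψ y := by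
    intro x y hxy
    have : Ψ x - Ψ y = q x - q y := by
      simp only [hΨ]
      rw [← sum_sub_distrib, sum_eq_single_of_mem s(x, y) hxy]
      · have := chi_sq_tree hT hxy (hS x y hxy).2.1 ha
        rw [dd_mk]
        linear_combination (q x - q y) * this
      · intro f _ hne
        rw [chi_edge (a := a) (mem_erase.2 ⟨Ne.symm hne, hxy⟩)]
        ring
    linarith
  have h1 := reach_const (fun z => q z - Ψ z) key (hT.1 a ha b hb)
  have h2 : q a - q b = Ψ a - Ψ b := by linarith
  rw [h2, sum_filter]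
  simp only [hΨ]
  rw [← sum_sub_distrib]
  refine sum_congr rfl fun f _ => ?_
  by_cases c : Reach (T.erase f) a b
  · simp [chi, c]
  · simp [chi, c]

noncomputable def forests (W : Finset V) (E : Finset (Sym2 V)) (a b : V) :
    Finset (Finset (Sym2 V)) :=
  E.powerset.filter fun F =>
    F.card + 2 = W.card ∧ ¬ Reach F a b ∧ ∀ z ∈ W, Reach F a z ∨ Reach F b z

lemma tree_forest {W : Finset V} {E : Finset (Sym2 V)} (hS : Sub W E) {a b : V}
    (ha : a ∈ W) (hb : b ∈ W) (w : Sym2 V → ℝ) (g : Finset (Sym2 V) → ℝ) {x y : V}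
    (hf : s(x, y) ∈ E) :
    ∑ T ∈ (trees W E).filter (fun T => s(x, y) ∈ T ∧ ¬ Reach (T.erase s(x, y)) a b),
        (∏ e ∈ T, w e) * g (T.erase s(x, y)) =
      w s(x, y) * ∑ F ∈ (forests W E a b).filter (fun F => chi F a x ≠ chi F a y),
        (∏ e ∈ F, w e) * g F := by
  rw [mul_sum]
  obtain ⟨_, hx, hy⟩ := hS x y hf
  refine sum_nbij' (fun T => T.erase s(x, y)) (fun F => insert s(x, y) F) ?_ ?_ ?_ ?_ ?_
  · intro T hT
    simp only [trees, mem_filter, mem_powerset] at hT
    obtain ⟨⟨hTE, hT⟩, hxy, hab⟩ := hT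
    simp only [forests, mem_filter, mem_powerset]
    have hsq := chi_sq_tree hT hxy hx ha
    refine ⟨⟨(erase_subset _ _).trans hTE, ?_, hab, ?_⟩, ?_⟩
    · rw [card_erase_of_mem hxy]
      have h2 := hT.2
      have h3 : 0 < T.card := card_pos.2 ⟨_, hxy⟩
      omega
    · intro z hz
      have h1 := reach_erase (y := y) (hT.1 x hx a ha)
      have h2 := reach_erase (y := y) (hT.1 x hx b hb)
      have h3 := reach_erase (y := y) (hT.1 x hx z hz)
      rcases h1 with h1 | h1 <;> rcases h2 with h2 | h2 <;> rcases h3 with h3 | h3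
      · exact absurd (h1.symm.trans h2) hab
      · exact absurd (h1.symm.trans h2) hab
      · exact Or.inl (h1.symm.trans h3)
      · exact Or.inr (h2.symm.trans h3)
      · exact Or.inr (h2.symm.trans h3)
      · exact Or.inl (h1.symm.trans h3)
      · exact absurd (h1.symm.trans h2) hab
      · exact absurd (h1.symm.trans h2) hab
    · intro h
      rw [h] at hsq
      simp at hsq
  · intro F hF
    simp only [forests, mem_filter, mem_powerset] at hF
    obtain ⟨⟨hFE, hc, hab, hall⟩, hchi⟩ := hF
    have hnot : s(x, y) ∉ F := fun h => hchi (chi_edge h)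
    simp only [trees, mem_filter, mem_powerset]
    refine ⟨⟨insert_subset hf hFE, ?_, ?_⟩, mem_insert_self _ _, ?_⟩
    · have hsub : F ⊆ insert s(x, y) F := subset_insert _ _
      have hxy : Reach (insert s(x, y) F) x y := reach_edge (mem_insert_self _ _)
      have hab' : Reach (insert s(x, y) F) a b := by
        by_cases c1 : Reach F a x
        · have c2 : ¬ Reach F a y := by
            intro c2; apply hchi; simp [chi, c1, c2]
          have c3 : Reach F b y := (hall y hy).resolve_left c2
          exact ((reach_mono hsub c1).trans hxy).trans (reach_mono hsub c3).symm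
        · have c2 : Reach F a y := by
            by_contra c2; apply hchi; simp [chi, c1, c2]
          have c3 : Reach F b x := (hall x hx).resolve_left c1
          exact ((reach_mono hsub c2).trans hxy.symm).trans (reach_mono hsub c3).symm
      have hz : ∀ z ∈ W, Reach (insert s(x, y) F) a z := by
        intro z hz
        rcases hall z hz with h | h
        · exact reach_mono hsub h
        · exact hab'.trans (reach_mono hsub h)
      exact fun u hu v hv => (hz u hu).symm.trans (hz v hv)
    · rw [card_insert_of_notMem hnot]; omega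
    · rw [erase_insert hnot]; exact hab
  · intro T hT
    simp only [mem_filter] at hT
    exact insert_erase hT.2.1
  · intro F hF
    simp only [mem_filter] at hF
    exact erase_insert fun h => hF.2 (chi_edge h)
  · intro T hT
    simp only [mem_filter] at hT
    rw [← mul_prod_erase T w hT.2.1]; ring

noncomputable def Zs (W : Finset V) (E : Finset (Sym2 V)) (w : Sym2 V → ℝ) : ℝ :=
  ∑ T ∈ trees W E, ∏ e ∈ T, w e

noncomputable def marg (W : Finset V) (E : Finset (Sym2 V)) (w : Sym2 V → ℝ) (f : Sym2 V) : ℝ :=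
  (∑ T ∈ (trees W E).filter (fun T => f ∈ T), ∏ e ∈ T, w e) / Zs W E w

noncomputable def En (E : Finset (Sym2 V)) (w : Sym2 V → ℝ) (p q : V → ℝ) : ℝ :=
  ∑ f ∈ E, w f * dd p q f

lemma Zs_pos {W : Finset V} {E : Finset (Sym2 V)} (hne : (trees W E).Nonempty) {w : Sym2 V → ℝ}
    (hw : ∀ f, 0 < w f) : 0 < Zs W E w :=
  sum_pos (fun _ _ => prod_pos fun e _ => hw e) hne

theorem kirchhoff {W : Finset V} {E : Finset (Sym2 V)} (hS : Sub W E)
    (hne : (trees W E).Nonempty) {w : Sym2 V → ℝ} (hw : ∀ f, 0 < w f) {a b : V}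
    (hab : s(a, b) ∈ E) :
    ∃ p : V → ℝ, marg W E w s(a, b) = w s(a, b) * (p a - p b) ∧
      ∀ q, En E w p q = q a - q b := by
  obtain ⟨_, ha, hb⟩ := hS a b hab
  have hZ := Zs_pos hne hw
  refine ⟨fun z => (∑ F ∈ forests W E a b, (∏ e ∈ F, w e) * chi F a z) / Zs W E w, ?_, ?_⟩
  · have h1 := tree_forest hS ha hb w (fun _ => 1) hab
    simp only [mul_one] at h1
    have e1 : (trees W E).filter (fun T => s(a, b) ∈ T ∧ ¬ Reach (T.erase s(a, b)) a b) =
        (trees W E).filter (fun T => s(a, b) ∈ T) := by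
      refine filter_congr fun T hT => ⟨fun h => h.1, fun h => ⟨h, ?_⟩⟩
      simp only [trees, mem_filter] at hT
      exact not_reach_erase hT.2 h ha
    have hch : ∀ F ∈ forests W E a b, chi F a a = 1 ∧ chi F a b = 0 := by
      intro F hF
      simp only [forests, mem_filter] at hF
      simp [chi, hF.2.2.1]
    have e2 : (forests W E a b).filter (fun F => chi F a a ≠ chi F a b) = forests W E a b := by
      refine filter_true_of_mem fun F hF => ?_
      rw [(hch F hF).1, (hch F hF).2]; exact one_ne_zero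
    rw [e1, e2] at h1
    rw [marg, h1, ← sub_div, ← sum_sub_distrib, mul_div_assoc]
    congr 2
    refine sum_congr rfl fun F hF => ?_
    rw [(hch F hF).1, (hch F hF).2]; ring
  · intro q
    have e1 : Zs W E w * (q a - q b) = ∑ f ∈ E, ∑ T ∈ (trees W E).filter
        (fun T => f ∈ T ∧ ¬ Reach (T.erase f) a b),
          (∏ e ∈ T, w e) * dd (chi (T.erase f) a) q f := by
      rw [Zs, sum_mul]
      simp only [sum_filter]
      rw [sum_comm]
      refine sum_congr rfl fun T hT => ?_
      simp only [trees, mem_filter, mem_powerset] at hT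
      rw [tree_flow hT.2 (fun x y h => hS x y (hT.1 h)) ha hb q, mul_sum, ← sum_filter]
      refine sum_congr ?_ fun _ _ => rfl
      ext f
      simp only [mem_filter]
      exact ⟨fun h => ⟨hT.1 h.1, h⟩, fun h => h.2⟩
    have e2 : Zs W E w * En E w (fun z => (∑ F ∈ forests W E a b, (∏ e ∈ F, w e) * chi F a z) /
        Zs W E w) q = Zs W E w * (q a - q b) := by
      rw [e1, En, mul_sum]
      refine sum_congr rfl fun f hf => ?_
      induction f using Sym2.ind with
      | _ x y =>
        rw [tree_forest hS ha hb w (fun F => dd (chi F a) q s(x, y)) hf, sum_filter, dd_mk]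
        have : ∑ F ∈ forests W E a b, (if chi F a x ≠ chi F a y then
            (∏ e ∈ F, w e) * dd (chi F a) q s(x, y) else 0) =
            (∑ F ∈ forests W E a b, (∏ e ∈ F, w e) * chi F a x -
              ∑ F ∈ forests W E a b, (∏ e ∈ F, w e) * chi F a y) * (q x - q y) := by
          rw [← sum_sub_distrib, sum_mul]
          refine sum_congr rfl fun F _ => ?_
          by_cases c : chi F a x = chi F a y
          · simp [c]
          · rw [if_pos c, dd_mk]; ring
        rw [this]
        field_simp
    exact mul_left_cancel₀ hZ.ne' e2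

end Vale.Agent.P143
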